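import Mathlib

/-! Row G1 of P181.FewRowsInterior (helper959, helper130), typed by helper415: pure numbers,
uniform in the number of rows. -/

set_option autoImplicit false

namespace Vale.Agent.P181.FR

open Filter

lemma gn_upper {n a b L : ℕ} {x l D : ℝ} (hx : x = (a : ℝ)) (hx1 : 1 ≤ x) (hl : l = Real.log x)
    (hD : ((b : ℝ) + 1) ^ (n + 2) + x ≤ Real.exp D)
    (hL : a.factorial * L ≤ ((b + 1) ^ (n + 2) + a) ^ a) :
    (L : ℝ) ≤ Real.exp (x * (D - l + 1)) := by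
  have hx0 : 0 < x := by linarith
  have h1 : (a.factorial : ℝ) * L ≤ (((b : ℝ) + 1) ^ (n + 2) + a) ^ a := by
    have h0 : ((a.factorial * L : ℕ) : ℝ) ≤ ((((b + 1) ^ (n + 2) + a) ^ a : ℕ) : ℝ) :=
      Nat.cast_le.mpr hL
    rw [Nat.cast_mul, Nat.cast_pow, Nat.cast_add, Nat.cast_pow, Nat.cast_add, Nat.cast_one] at h0
    exact h0
  rw [← hx] at h1
  have h5 : x ^ a / (a.factorial : ℝ) ≤ Real.exp x :=
    Real.pow_div_factorial_le_exp x hx0.le a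
  have hf : (0 : ℝ) < a.factorial := by exact_mod_cast a.factorial_pos
  rw [div_le_iff₀ hf] at h5
  have hxa : (0 : ℝ) < x ^ a := by positivity
  have h6 : (L : ℝ) * x ^ a ≤ (Real.exp D) ^ a * Real.exp x := by
    calc (L : ℝ) * x ^ a ≤ L * (Real.exp x * a.factorial) :=
          mul_le_mul_of_nonneg_left h5 (Nat.cast_nonneg L)
      _ = (a.factorial * L) * Real.exp x := by ring
      _ ≤ (((b : ℝ) + 1) ^ (n + 2) + x) ^ a * Real.exp x :=
          mul_le_mul_of_nonneg_right h1 (Real.exp_pos x).le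
      _ ≤ (Real.exp D) ^ a * Real.exp x := by
          apply mul_le_mul_of_nonneg_right _ (Real.exp_pos x).le
          exact pow_le_pow_left₀ (by positivity) hD _
  have h7 : x ^ a = Real.exp (x * l) := by
    rw [mul_comm, hl, Real.exp_mul, Real.exp_log hx0, hx, Real.rpow_natCast]
  have h8 : (Real.exp D) ^ a = Real.exp (x * D) := by
    rw [mul_comm, Real.exp_mul, hx, Real.rpow_natCast]
  rw [h7, h8, ← Real.exp_add] at h6
  have h9 : (L : ℝ) = (L : ℝ) * Real.exp (x * l) * Real.exp (-(x * l)) := by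
    rw [mul_assoc, ← Real.exp_add]
    simp
  rw [h9]
  calc (L : ℝ) * Real.exp (x * l) * Real.exp (-(x * l))
      ≤ Real.exp (x * D + x) * Real.exp (-(x * l)) :=
        mul_le_mul_of_nonneg_right h6 (Real.exp_pos _).le
    _ = Real.exp (x * (D - l + 1)) := by
        rw [← Real.exp_add]
        congr 1
        ring

lemma gn_D {n b : ℕ} {x l k q : ℝ} (hq : q = (n : ℝ) + 2) (hx1 : 1 ≤ x) (hl : l = Real.log x)
    (hk : 0 ≤ k) (hb1 : (1 : ℝ) ≤ b) (hb : (b : ℝ) ≤ x ^ (1 + 2 * k)) :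
    ((b : ℝ) + 1) ^ (n + 2) + x ≤
      Real.exp (q * (Real.log 2 + (1 + 2 * k) * l) + Real.log 2) := by
  have hx0 : 0 < x := by linarith
  have h1 : Real.exp (q * (Real.log 2 + (1 + 2 * k) * l) + Real.log 2) =
      (2 * x ^ (1 + 2 * k)) ^ (n + 2) * 2 := by
    have h2 : q = ((n + 2 : ℕ) : ℝ) := by rw [hq]; push_cast; ring
    rw [Real.exp_add, Real.exp_log (by norm_num), mul_comm q, Real.exp_mul, Real.exp_add,
      Real.exp_log (by norm_num), mul_comm (1 + 2 * k) l, Real.exp_mul, hl, Real.exp_log hx0, h2,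
      Real.rpow_natCast]
  rw [h1]
  have h3 : ((b : ℝ) + 1) ^ (n + 2) ≤ (2 * x ^ (1 + 2 * k)) ^ (n + 2) :=
    pow_le_pow_left₀ (by positivity) (by linarith) _
  have h4 : x ≤ (2 * x ^ (1 + 2 * k)) ^ (n + 2) := by
    have h5 : x ≤ x ^ (1 + 2 * k) := by
      calc x = x ^ (1 : ℝ) := (Real.rpow_one x).symm
        _ ≤ x ^ (1 + 2 * k) := Real.rpow_le_rpow_of_exponent_le hx1 (by linarith)
    have h6 : 1 ≤ 2 * x ^ (1 + 2 * k) := by linarith
    calc x ≤ 2 * x ^ (1 + 2 * k) := by linarith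
      _ = (2 * x ^ (1 + 2 * k)) ^ 1 := (pow_one _).symm
      _ ≤ (2 * x ^ (1 + 2 * k)) ^ (n + 2) := pow_le_pow_right₀ h6 (by omega)
  linarith

lemma gn_mid {b c E : ℕ} {x l k : ℝ} (hx2 : 2 ≤ x) (hl : l = Real.log x)
    (hbr : (b : ℝ) ≤ x ^ (1 + 2 * k)) (hcx : (c : ℝ) ≤ x ^ (1 - 2 * k)) :
    ((b : ℝ) * c + 1) ^ E ≤ Real.exp (E * (3 * l)) := by
  have hx0 : 0 < x := by linarith
  have h1 : (b : ℝ) * c + 1 ≤ x ^ 3 := by
    have h2 : (b : ℝ) * c ≤ x ^ 2 := by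
      calc (b : ℝ) * c ≤ x ^ (1 + 2 * k) * x ^ (1 - 2 * k) :=
            mul_le_mul hbr hcx (Nat.cast_nonneg c) (by positivity)
        _ = x ^ 2 := by
            rw [← Real.rpow_add hx0]
            have : 1 + 2 * k + (1 - 2 * k) = ((2 : ℕ) : ℝ) := by push_cast; ring
            rw [this, Real.rpow_natCast]
    have h3 : x ^ 3 = x * x ^ 2 := by ring
    have h4 : 1 ≤ x ^ 2 := by nlinarith
    nlinarith
  have h3 : Real.exp (E * (3 * l)) = (x ^ 3) ^ E := by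
    rw [mul_comm (E : ℝ), Real.exp_mul, Real.rpow_natCast, mul_comm 3 l, hl, Real.exp_mul,
      Real.exp_log hx0]
    norm_num
  rw [h3]
  exact pow_le_pow_left₀ (by positivity) h1 _

lemma gn_lower {n b c h s : ℕ} {x k q l w y δ : ℝ} (hq : q = (n : ℝ) + 2) (hx1 : 1 ≤ x)
    (hl : l = Real.log x) (hk0 : 0 < k) (hk : k < 1 / 20) (hw : w = x ^ (1 - 3 * k))
    (hw2 : 2 ≤ w) (hy : y = x ^ (1 - 2 * k)) (hqx : q ≤ x ^ k) (hkl : 3 ≤ k * l)
    (hbr : (b : ℝ) ≤ x ^ (1 + 2 * k)) (hyc : y < c + 1)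
    (hab : (1 + δ) * x ≤ b) (hh2 : c + 1 ≤ (n + 2) * (h + 1))
    (hs2 : h ^ (n + 2) + 1 ≤ b * (s + 1)) :
    Real.exp ((1 + δ) * x * ((q * (1 - 5 * k) - 1) * l)) ≤ (s : ℝ) ^ b := by
  have hx0 : 0 < x := by linarith
  have hl0 : 0 ≤ l := by rw [hl]; exact Real.log_nonneg hx1
  have hn0 : (0 : ℝ) ≤ n := Nat.cast_nonneg n
  have hq2 : 2 ≤ q := by linarith
  have hlog2 : Real.log 2 ≤ 1 := by
    have := Real.log_two_lt_d9
    linarith
  have hlog20 : 0 < Real.log 2 := Real.log_pos (by norm_num)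
  have hyw : y = w * x ^ k := by
    rw [hy, hw, ← Real.rpow_add hx0]
    congr 1
    ring
  have hhw : w / 2 ≤ h := by
    have h1 : (c : ℝ) + 1 ≤ q * (h + 1) := by
      rw [hq]
      exact_mod_cast hh2
    have h2 : w * q ≤ y := by
      rw [hyw]
      exact mul_le_mul_of_nonneg_left hqx (by linarith)
    have h3 : w * q < q * (h + 1) := by linarith
    have h4 : w < h + 1 := by
      by_contra hcon
      push Not at hcon
      have : q * (h + 1) ≤ q * w := mul_le_mul_of_nonneg_left hcon (by linarith)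
      linarith [mul_comm w q]
    linarith
  have hw0 : 0 < w := by linarith
  have hhq : Real.exp (q * ((1 - 3 * k) * l - Real.log 2)) ≤ (h : ℝ) ^ (n + 2) := by
    have h1 : Real.exp (q * ((1 - 3 * k) * l - Real.log 2)) = (w / 2) ^ (n + 2) := by
      have h2 : q = ((n + 2 : ℕ) : ℝ) := by rw [hq]; push_cast; ring
      rw [mul_comm q, Real.exp_mul, Real.exp_sub, Real.exp_log (by norm_num),
        mul_comm (1 - 3 * k) l, Real.exp_mul, hl, Real.exp_log hx0, ← hw, h2, Real.rpow_natCast]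
    rw [h1]
    exact pow_le_pow_left₀ (by positivity) hhw _
  obtain ⟨T, hT⟩ : ∃ T : ℝ, T = Real.exp ((q * (1 - 5 * k) - 1) * l) := ⟨_, rfl⟩
  have hT0 : 0 < T := by rw [hT]; exact Real.exp_pos _
  have hq5 : 0 ≤ q * (1 - 5 * k) - 1 := by nlinarith
  have hT1 : 1 ≤ T := by
    rw [hT]
    exact Real.one_le_exp (mul_nonneg hq5 hl0)
  have hTs : T ≤ s := by
    have h1 : (h : ℝ) ^ (n + 2) + 1 ≤ b * (s + 1) := by exact_mod_cast hs2
    have h2 : x ^ (1 + 2 * k) = Real.exp ((1 + 2 * k) * l) := by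
      rw [mul_comm (1 + 2 * k) l, hl, Real.exp_mul, Real.exp_log hx0]
    have h3 : 2 * T * x ^ (1 + 2 * k) ≤ (h : ℝ) ^ (n + 2) := by
      refine le_trans ?_ hhq
      have h4 : (2 : ℝ) = Real.exp (Real.log 2) := (Real.exp_log (by norm_num)).symm
      rw [hT, h2]
      nth_rewrite 1 [h4]
      rw [← Real.exp_add, ← Real.exp_add]
      apply Real.exp_le_exp.mpr
      have h5 : 2 * (k * l) ≤ q * (k * l) := mul_le_mul_of_nonneg_right hq2 (by linarith)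
      have h6 : 3 * q ≤ q * (k * l) := by
        rw [mul_comm 3 q]
        exact mul_le_mul_of_nonneg_left hkl (by linarith)
      have h7 : q * Real.log 2 ≤ q * 1 := mul_le_mul_of_nonneg_left hlog2 (by linarith)
      nlinarith
    have h8 : 2 * T * x ^ (1 + 2 * k) ≤ x ^ (1 + 2 * k) * (s + 1) := by
      calc 2 * T * x ^ (1 + 2 * k) ≤ (h : ℝ) ^ (n + 2) := h3
        _ ≤ b * (s + 1) := by linarith
        _ ≤ x ^ (1 + 2 * k) * (s + 1) := mul_le_mul_of_nonneg_right hbr (by positivity)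
    have h9 : 2 * T ≤ s + 1 := by
      have hp : 0 < x ^ (1 + 2 * k) := by positivity
      by_contra hcon
      push Not at hcon
      have : x ^ (1 + 2 * k) * (s + 1) < x ^ (1 + 2 * k) * (2 * T) :=
        mul_lt_mul_of_pos_left hcon hp
      linarith [mul_comm (x ^ (1 + 2 * k)) (2 * T)]
    linarith
  have h10 : T ^ b = Real.exp (b * ((q * (1 - 5 * k) - 1) * l)) := by
    rw [mul_comm (b : ℝ) ((q * (1 - 5 * k) - 1) * l), Real.exp_mul, Real.rpow_natCast, ← hT]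
  calc Real.exp ((1 + δ) * x * ((q * (1 - 5 * k) - 1) * l))
      ≤ Real.exp (b * ((q * (1 - 5 * k) - 1) * l)) := by
        apply Real.exp_le_exp.mpr
        exact mul_le_mul_of_nonneg_right hab (mul_nonneg hq5 hl0)
    _ = T ^ b := h10.symm
    _ ≤ (s : ℝ) ^ b := pow_le_pow_left₀ hT0.le hTs _

lemma gn_fin {x l δ q k z : ℝ} {E : ℝ} (hx0 : 0 < x) (hl0 : 0 ≤ l) (hq2 : 2 ≤ q) (hδ : 0 < δ)
    (hkδ : k * (8 + 5 * δ) ≤ δ / 4) (hkl : 3 ≤ k * l) (hE : E ≤ 2 * z)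
    (hz : 12 * z ≤ δ * x) :
    x * (q * (Real.log 2 + (1 + 2 * k) * l) + Real.log 2 - l + 1) + E * (3 * l) ≤
      (1 + δ) * x * ((q * (1 - 5 * k) - 1) * l) := by
  have hlog2 : Real.log 2 ≤ 1 := by
    have := Real.log_two_lt_d9
    linarith
  have h1 : q * (Real.log 2 + (1 + 2 * k) * l) + Real.log 2 - l + 1 ≤
      (q * (1 + 3 * k) - 1) * l := by
    have h6 : 3 * q ≤ q * (k * l) := by
      rw [mul_comm 3 q]
      exact mul_le_mul_of_nonneg_left hkl (by linarith)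
    have h7 : q * Real.log 2 ≤ q * 1 := mul_le_mul_of_nonneg_left hlog2 (by linarith)
    nlinarith
  have h2 : E * (3 * l) ≤ x * (δ / 2 * l) := by
    calc E * (3 * l) ≤ (2 * z) * (3 * l) := mul_le_mul_of_nonneg_right hE (by linarith)
      _ = (12 * z) * (l / 2) := by ring
      _ ≤ (δ * x) * (l / 2) := mul_le_mul_of_nonneg_right hz (by linarith)
      _ = x * (δ / 2 * l) := by ring
  have h3 : (q * (1 + 3 * k) - 1) + δ / 2 ≤ (1 + δ) * (q * (1 - 5 * k) - 1) := by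
    have h4 : q * (k * (8 + 5 * δ)) ≤ q * (δ / 4) := mul_le_mul_of_nonneg_left hkδ (by linarith)
    have h5 : 2 * δ ≤ q * δ := mul_le_mul_of_nonneg_right hq2 hδ.le
    nlinarith
  calc x * (q * (Real.log 2 + (1 + 2 * k) * l) + Real.log 2 - l + 1) + E * (3 * l)
      ≤ x * ((q * (1 + 3 * k) - 1) * l) + x * (δ / 2 * l) :=
        add_le_add (mul_le_mul_of_nonneg_left h1 hx0.le) h2
    _ = x * l * ((q * (1 + 3 * k) - 1) + δ / 2) := by ring
    _ ≤ x * l * ((1 + δ) * (q * (1 - 5 * k) - 1)) :=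
        mul_le_mul_of_nonneg_left h3 (mul_nonneg hx0.le hl0)
    _ = _ := by ring

lemma gn_geo {t w y z x : ℝ} (ht : 16 ≤ t) (hw : 16 ≤ w) (hyw : y = w * t) (hzy : z = y * t)
    (hxz : x = z * t) : 16 * y ≤ z ∧ 16 * z ≤ x ∧ 16 * t ≤ z ∧ 16 * (t * t) ≤ z := by
  have ht0 : 0 < t := by linarith
  have hy0 : 0 < y := by rw [hyw]; positivity
  have hz0 : 0 < z := by rw [hzy]; positivity
  have h4 : 16 * (t * t) ≤ z := by
    have : z = w * (t * t) := by rw [hzy, hyw]; ring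
    rw [this]
    exact mul_le_mul_of_nonneg_right hw (by positivity)
  have h3 : t ≤ t * t := by
    calc t = 1 * t := (one_mul t).symm
      _ ≤ t * t := mul_le_mul_of_nonneg_right (by linarith) ht0.le
  refine ⟨?_, ?_, by linarith, h4⟩
  · rw [hzy, mul_comm y t]
    exact mul_le_mul_of_nonneg_right ht hy0.le
  · rw [hxz, mul_comm z t]
    exact mul_le_mul_of_nonneg_right ht hz0.le

lemma gn_chs (n : ℕ) {b : ℕ} {y : ℝ} (hbn : 0 < b) (hy0 : 0 < y) : ∃ c h s : ℕ,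
    (c : ℝ) ≤ y ∧ y < c + 1 ∧ (n + 2) * h ≤ c ∧ c + 1 ≤ (n + 2) * (h + 1) ∧
    s * b ≤ h ^ (n + 2) ∧ h ^ (n + 2) + 1 ≤ b * (s + 1) :=
  ⟨⌊y⌋₊, ⌊y⌋₊ / (n + 2), (⌊y⌋₊ / (n + 2)) ^ (n + 2) / b, Nat.floor_le hy0.le,
    Nat.lt_floor_add_one y, Nat.mul_div_le _ _, Nat.lt_mul_div_succ _ (by omega),
    Nat.div_mul_le_self _ _, Nat.lt_mul_div_succ _ hbn⟩

lemma gn_last {n a b c h s L : ℕ} {δ k x l q t w y : ℝ} (hδ : 0 < δ) (hk0 : 0 < k)
    (hk : k < 1 / 20) (hkδ : k * (8 + 5 * δ) ≤ δ / 4) (hx : x = (a : ℝ)) (hx2 : 2 ≤ x)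
    (hl : l = Real.log x) (hkl : 3 ≤ k * l) (hq : q = (n : ℝ) + 2) (hqx : q ≤ x ^ k)
    (hb1 : (1 : ℝ) ≤ b) (hab : (1 + δ) * x ≤ b) (hba : (b : ℝ) ≤ x ^ (1 + 2 * k))
    (hy : y = x ^ (1 - 2 * k)) (hw : w = x ^ (1 - 3 * k)) (hw2 : 2 ≤ w) (hcy : (c : ℝ) ≤ y)
    (hyc : y < c + 1) (hh2 : c + 1 ≤ (n + 2) * (h + 1))
    (hs2 : h ^ (n + 2) + 1 ≤ b * (s + 1)) (hnt : (n : ℝ) + 3 ≤ t) (ht : 16 ≤ t)
    (hxy : x = y * (t * t)) (f3 : 12 / δ ≤ y)
    (hL : a.factorial * L ≤ ((b + 1) ^ (n + 2) + a) ^ a) :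
    L * (b * c + 1) ^ ((n + 3) * (n + 3) + (n + 3)) ≤ s ^ b := by
  obtain ⟨E, hE⟩ : ∃ E : ℕ, E = (n + 3) * (n + 3) + (n + 3) := ⟨_, rfl⟩
  have hx1 : 1 ≤ x := by linarith
  have hx0 : 0 < x := by linarith
  have hl0 : 0 ≤ l := by rw [hl]; exact Real.log_nonneg hx1
  have hn0 : (0 : ℝ) ≤ n := Nat.cast_nonneg n
  have hq2 : 2 ≤ q := by linarith
  have hD := gn_D hq hx1 hl hk0.le hb1 hba
  have hLx := gn_upper hx hx1 hl hD hL
  have hmid := gn_mid (b := b) (c := c) (E := E) (k := k) hx2 hl hba (by rw [← hy]; exact hcy)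
  have hsb := gn_lower (δ := δ) hq hx1 hl hk0 hk hw hw2 hy hqx hkl hba hyc hab hh2 hs2
  have hzz : 12 * (t * t) ≤ δ * x := by
    have h2 : 12 ≤ δ * y := by
      rw [div_le_iff₀ hδ] at f3
      linarith [mul_comm y δ]
    calc 12 * (t * t) ≤ (δ * y) * (t * t) := mul_le_mul_of_nonneg_right h2 (by positivity)
      _ = δ * x := by rw [hxy]; ring
  have hE2 : (E : ℝ) ≤ 2 * (t * t) := by
    have h1 : (E : ℝ) = ((n : ℝ) + 3) * ((n : ℝ) + 3) + ((n : ℝ) + 3) := by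
      rw [hE]; push_cast; ring
    have h2 : ((n : ℝ) + 3) * ((n : ℝ) + 3) ≤ t * t :=
      mul_le_mul hnt hnt (by linarith) (by linarith)
    have h3 : t ≤ t * t := by
      calc t = 1 * t := (one_mul t).symm
        _ ≤ t * t := mul_le_mul_of_nonneg_right (by linarith) (by linarith)
    rw [h1]
    linarith
  have hfin := gn_fin (E := (E : ℝ)) hx0 hl0 hq2 hδ hkδ hkl hE2 hzz
  have hreal : (L : ℝ) * ((b : ℝ) * c + 1) ^ E ≤ (s : ℝ) ^ b := by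
    calc (L : ℝ) * ((b : ℝ) * c + 1) ^ E
        ≤ Real.exp (x * (q * (Real.log 2 + (1 + 2 * k) * l) + Real.log 2 - l + 1)) *
          Real.exp ((E : ℝ) * (3 * l)) :=
          mul_le_mul hLx hmid (by positivity) (Real.exp_pos _).le
      _ = Real.exp (x * (q * (Real.log 2 + (1 + 2 * k) * l) + Real.log 2 - l + 1) +
          (E : ℝ) * (3 * l)) := (Real.exp_add _ _).symm
      _ ≤ Real.exp ((1 + δ) * x * ((q * (1 - 5 * k) - 1) * l)) := Real.exp_le_exp.mpr hfin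
      _ ≤ (s : ℝ) ^ b := hsb
  have hnn : ((L * (b * c + 1) ^ E : ℕ) : ℝ) ≤ ((s ^ b : ℕ) : ℝ) := by
    rw [Nat.cast_mul, Nat.cast_pow, Nat.cast_add, Nat.cast_mul, Nat.cast_one, Nat.cast_pow]
    exact hreal
  rw [← hE]
  exact Nat.cast_le.mp hnn

theorem grow_num {δ : ℝ} (hδ : 0 < δ) : ∃ κ : ℝ, 0 < κ ∧ κ < 1 / 20 ∧ ∃ A : ℕ, ∀ n a b : ℕ,
    A ≤ a → (n : ℝ) + 3 ≤ (a : ℝ) ^ κ → (1 + δ) * a ≤ b → (b : ℝ) ≤ (a : ℝ) ^ (1 + 2 * κ) →
    ∃ c h s : ℕ, c + (n + 3) ≤ a ∧ (n + 2) * h ≤ c ∧ s * b ≤ h ^ (n + 2) ∧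
      (c : ℝ) + 1 + 4 * (n + 3) ^ 2 ≤ (a : ℝ) ^ (1 - κ) ∧
      ∀ L : ℕ, a.factorial * L ≤ ((b + 1) ^ (n + 2) + a) ^ a →
        L * (b * c + 1) ^ ((n + 3) * (n + 3) + (n + 3)) ≤ s ^ b := by
  obtain ⟨k, hk⟩ : ∃ k : ℝ, k = min (1 / 40) (δ / (4 * (8 + 5 * δ))) := ⟨_, rfl⟩
  have hk0 : 0 < k := by rw [hk]; exact lt_min (by norm_num) (by positivity)
  have hk40 : k ≤ 1 / 40 := by rw [hk]; exact min_le_left _ _
  have hkδ : k * (8 + 5 * δ) ≤ δ / 4 := by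
    have h1 : k ≤ δ / (4 * (8 + 5 * δ)) := by rw [hk]; exact min_le_right _ _
    calc k * (8 + 5 * δ) ≤ δ / (4 * (8 + 5 * δ)) * (8 + 5 * δ) :=
          mul_le_mul_of_nonneg_right h1 (by positivity)
      _ = δ / 4 := by field_simp
  have hnat : Tendsto (fun a : ℕ => (a : ℝ)) atTop atTop := tendsto_natCast_atTop_atTop
  have e1 : ∀ᶠ a : ℕ in atTop, 16 ≤ (a : ℝ) ^ k :=
    ((tendsto_rpow_atTop hk0).comp hnat).eventually_ge_atTop _
  have e2 : ∀ᶠ a : ℕ in atTop, 3 / k ≤ Real.log a :=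
    (Real.tendsto_log_atTop.comp hnat).eventually_ge_atTop _
  have e3 : ∀ᶠ a : ℕ in atTop, 12 / δ ≤ (a : ℝ) ^ (1 - 2 * k) :=
    ((tendsto_rpow_atTop (by linarith : 0 < 1 - 2 * k)).comp hnat).eventually_ge_atTop _
  have e4 : ∀ᶠ a : ℕ in atTop, 1 ≤ a := eventually_ge_atTop 1
  obtain ⟨A, hA⟩ := Filter.eventually_atTop.mp (((e1.and e2).and e3).and e4)
  refine ⟨k, hk0, by linarith, A, ?_⟩
  intro n a b hAa hna hab hba
  obtain ⟨⟨⟨f1, f2⟩, f3⟩, f4⟩ := hA a hAa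
  obtain ⟨x, hx⟩ : ∃ x : ℝ, x = (a : ℝ) := ⟨_, rfl⟩
  rw [← hx] at f1 f2 f3 hna hab hba
  rw [← hx]
  have hx1 : 1 ≤ x := by rw [hx]; exact_mod_cast f4
  have hx0 : 0 < x := by linarith
  obtain ⟨l, hl⟩ : ∃ l : ℝ, l = Real.log x := ⟨_, rfl⟩
  have hl0 : 0 ≤ l := by rw [hl]; exact Real.log_nonneg hx1
  have hkl : 3 ≤ k * l := by
    rw [← hl, div_le_iff₀ hk0] at f2
    linarith [mul_comm k l]
  have hn0 : (0 : ℝ) ≤ n := Nat.cast_nonneg n
  obtain ⟨q, hq⟩ : ∃ q : ℝ, q = (n : ℝ) + 2 := ⟨_, rfl⟩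
  have hq2 : 2 ≤ q := by linarith
  have hqx : q ≤ x ^ k := by linarith
  have hb0 : (0 : ℝ) < b := lt_of_lt_of_le (by positivity) hab
  have hbn : 0 < b := by exact_mod_cast hb0
  have hb1 : (1 : ℝ) ≤ b := by exact_mod_cast hbn
  obtain ⟨y, hy⟩ : ∃ y : ℝ, y = x ^ (1 - 2 * k) := ⟨_, rfl⟩
  obtain ⟨w, hw⟩ : ∃ w : ℝ, w = x ^ (1 - 3 * k) := ⟨_, rfl⟩
  obtain ⟨z, hz⟩ : ∃ z : ℝ, z = x ^ (1 - k) := ⟨_, rfl⟩
  obtain ⟨t, ht⟩ : ∃ t : ℝ, t = x ^ k := ⟨_, rfl⟩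
  have ht16 : 16 ≤ t := by rw [ht]; exact f1
  have hmono : ∀ e : ℝ, k ≤ e → t ≤ x ^ e := by
    intro e he
    rw [ht]
    exact Real.rpow_le_rpow_of_exponent_le hx1 he
  have hw16 : 16 ≤ w := by rw [hw]; exact ht16.trans (hmono _ (by linarith))
  have hz16 : 16 ≤ z := by rw [hz]; exact ht16.trans (hmono _ (by linarith))
  have hyw : y = w * t := by
    rw [hy, hw, ht, ← Real.rpow_add hx0]
    congr 1
    ring
  have hzy : z = y * t := by
    rw [hy, hz, ht, ← Real.rpow_add hx0]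
    congr 1
    ring
  have hxz : x = z * t := by
    rw [hz, ht, ← Real.rpow_add hx0]
    simp
  have hy0 : 0 < y := by rw [hy]; positivity
  have ht0 : 0 < t := by linarith
  obtain ⟨c, h, s, hcy, hyc, hh1, hh2, hs1, hs2⟩ := gn_chs n hbn hy0
  have hnt : (n : ℝ) + 3 ≤ t := by rw [ht]; exact hna
  obtain ⟨h16y, h16z, htz, htt⟩ := gn_geo ht16 hw16 hyw hzy hxz
  refine ⟨c, h, s, ?_, hh1, hs1, ?_, ?_⟩
  · have h1 : (c : ℝ) + ((n : ℝ) + 3) ≤ a := by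
      rw [← hx]
      linarith
    exact_mod_cast h1
  · have h1 : ((n : ℝ) + 3) ^ 2 ≤ t * t := by
      rw [sq]
      exact mul_le_mul hnt hnt (by linarith) (by linarith)
    rw [← hz]
    linarith
  · intro L hL
    exact gn_last hδ hk0 (by linarith) hkδ hx (by linarith) hl hkl hq hqx hb1 hab hba hy hw
      (by linarith) hcy hyc hh2 hs2 hnt ht16 (by rw [hxz, hzy]; ring) (by rw [hy]; exact f3) hL

end Vale.Agent.P181.FR
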