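import Vale.Agent.P181.R2.H959.FDefs

/-! Row T1 of P181.FewRowsInterior (helper959), typed by helper415: a lower bound of the dimension
of `Sym^b (Sym^c ℂ^(n+3))`. -/

set_option autoImplicit false

open scoped TensorProduct

namespace Vale.Agent.P181.FR

open Vale.Agent.P181 Vale.Agent.P181.H280 Vale.Agent.P181.H54 MvPolynomial

namespace T1

/-- the linear form `w ↦ w_0 + ∑ w_(i+1) X_i` -/
noncomputable def ell (n : ℕ) : (Fin (n + 3) → ℂ) →ₗ[ℂ] MvPolynomial (Fin (n + 2)) ℂ :=
  (LinearMap.proj 0 : (Fin (n + 3) → ℂ) →ₗ[ℂ] ℂ).smulRight 1 +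
  ∑ i : Fin (n + 2), (LinearMap.proj i.succ : (Fin (n + 3) → ℂ) →ₗ[ℂ] ℂ).smulRight (X i)

lemma ell_zero (n : ℕ) : ell n (Pi.single 0 1) = 1 := by
  unfold ell
  rw [LinearMap.add_apply, LinearMap.sum_apply, Finset.sum_eq_zero, add_zero]
  · simp
  · intro i _
    rw [LinearMap.smulRight_apply, LinearMap.proj_apply,
      Pi.single_eq_of_ne (Fin.succ_ne_zero i), zero_smul]

lemma ell_succ (n : ℕ) (i : Fin (n + 2)) : ell n (Pi.single i.succ 1) = X i := by
  unfold ell
  rw [LinearMap.add_apply, LinearMap.sum_apply, Finset.sum_eq_single i]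
  · rw [LinearMap.smulRight_apply, LinearMap.smulRight_apply, LinearMap.proj_apply,
      LinearMap.proj_apply, Pi.single_eq_same, Pi.single_eq_of_ne (Fin.succ_ne_zero i).symm,
      zero_smul, one_smul, zero_add]
  · intro j _ hj
    rw [LinearMap.smulRight_apply, LinearMap.proj_apply,
      Pi.single_eq_of_ne (by simpa using hj), zero_smul]
  · simp

/-- products of linear forms -/
noncomputable def phi0 (c n : ℕ) :
    Sym[ℂ]^c (Fin (n + 3) → ℂ) →ₗ[ℂ] MvPolynomial (Fin (n + 2)) ℂ :=
  symLift ((MultilinearMap.mkPiAlgebra ℂ (Fin c) (MvPolynomial (Fin (n + 2)) ℂ)).compLinearMap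
    (fun _ => ell n)) (fun e v => by
      simp only [MultilinearMap.compLinearMap_apply, MultilinearMap.mkPiAlgebra_apply]
      exact Equiv.prod_comp e (fun i => ell n (v i)))

/-- monomials become variables -/
noncomputable def toVar (n : ℕ) :
    MvPolynomial (Fin (n + 2)) ℂ →ₗ[ℂ] MvPolynomial (Fin (n + 2) →₀ ℕ) ℂ :=
  (MvPolynomial.basisMonomials (Fin (n + 2)) ℂ).constr ℂ (fun d => X d)

/-- the map of the plethysm to the polynomials in the monomials -/
noncomputable def Phi (b c n : ℕ) :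
    Pleth b c (n + 3) →ₗ[ℂ] MvPolynomial (Fin (n + 2) →₀ ℕ) ℂ :=
  symLift ((MultilinearMap.mkPiAlgebra ℂ (Fin b)
      (MvPolynomial (Fin (n + 2) →₀ ℕ) ℂ)).compLinearMap
    (fun _ => toVar n ∘ₗ phi0 c n)) (fun e v => by
      simp only [MultilinearMap.compLinearMap_apply, MultilinearMap.mkPiAlgebra_apply]
      exact Equiv.prod_comp e (fun i => (toVar n ∘ₗ phi0 c n) (v i)))

/-- a word with prescribed numbers of letters -/
lemma exists_word {A : Type*} [CommMonoid A] {c n : ℕ} (F : Fin (n + 3) → A)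
    (u : Fin (n + 2) → ℕ) (hu : ∑ i, u i ≤ c) :
    ∃ g : Fin c → Fin (n + 3),
      ∏ k, F (g k) = F 0 ^ (c - ∑ i, u i) * ∏ i : Fin (n + 2), F i.succ ^ u i := by
  classical
  obtain ⟨L, hL, hprod⟩ : ∃ L : List (Fin (n + 3)), L.length = c ∧
      (L.map F).prod = F 0 ^ (c - ∑ i, u i) * ∏ i : Fin (n + 2), F i.succ ^ u i := by
    have h1 : ∀ s : Finset (Fin (n + 2)), ∃ m : Multiset (Fin (n + 3)),
        m.card = ∑ i ∈ s, u i ∧ (m.map F).prod = ∏ i ∈ s, F i.succ ^ u i := by
      intro s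
      induction s using Finset.induction_on with
      | empty => exact ⟨0, by simp, by simp⟩
      | insert i s his ih =>
        obtain ⟨m, hm1, hm2⟩ := ih
        refine ⟨Multiset.replicate (u i) i.succ + m, ?_, ?_⟩
        · rw [Multiset.card_add, Multiset.card_replicate, hm1, Finset.sum_insert his]
        · rw [Multiset.map_add, Multiset.prod_add, Multiset.map_replicate,
            Multiset.prod_replicate, hm2, Finset.prod_insert his]
    obtain ⟨m, hm1, hm2⟩ := h1 Finset.univ
    refine ⟨(Multiset.replicate (c - ∑ i, u i) (0 : Fin (n + 3)) + m).toList, ?_, ?_⟩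
    · rw [Multiset.length_toList, Multiset.card_add, Multiset.card_replicate, hm1]
      omega
    · rw [← Multiset.prod_coe, ← Multiset.map_coe, Multiset.coe_toList, Multiset.map_add,
        Multiset.prod_add, Multiset.map_replicate, Multiset.prod_replicate, hm2]
  subst hL
  exact ⟨fun k => L[k.1], by rw [Fin.prod_univ_fun_getElem, hprod]⟩

/-- the exponent of the monomial -/
noncomputable def dd {n : ℕ} (u : Fin (n + 2) → ℕ) : Fin (n + 2) →₀ ℕ :=
  ∑ i, Finsupp.single i (u i)

lemma dd_apply {n : ℕ} (u : Fin (n + 2) → ℕ) (i : Fin (n + 2)) : dd u i = u i := by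
  classical
  unfold dd
  rw [Finsupp.finsetSum_apply, Finset.sum_eq_single i]
  · simp
  · intro j _ hj
    rw [Finsupp.single_apply, if_neg hj]
  · simp

lemma dd_inj {n : ℕ} {u u' : Fin (n + 2) → ℕ} (h : dd u = dd u') : u = u' := by
  funext i
  rw [← dd_apply u, ← dd_apply u', h]

/-- the vector of a monomial -/
lemma exists_vec {c n : ℕ} (u : Fin (n + 2) → ℕ) (hu : ∑ i, u i ≤ c) :
    ∃ x : Sym[ℂ]^c (Fin (n + 3) → ℂ), toVar n (phi0 c n x) = X (dd u) := by
  obtain ⟨g, hg⟩ := exists_word (fun j : Fin (n + 3) => ell n (Pi.single j 1)) u hu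
  refine ⟨SymmetricPower.tprod ℂ (fun k => Pi.single (g k) 1), ?_⟩
  have h1 : phi0 c n (SymmetricPower.tprod ℂ (fun k => Pi.single (g k) 1)) =
      monomial (dd u) 1 := by
    rw [phi0, symLift_tprod]
    simp only [MultilinearMap.compLinearMap_apply, MultilinearMap.mkPiAlgebra_apply]
    rw [hg, ell_zero, one_pow, one_mul]
    unfold dd
    rw [MvPolynomial.monomial_sum_one]
    apply Finset.prod_congr rfl
    intro i _
    rw [ell_succ, X_pow_eq_monomial]
  rw [h1]
  have h2 : (monomial (dd u) (1 : ℂ)) =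
      MvPolynomial.basisMonomials (Fin (n + 2)) ℂ (dd u) := by
    rw [MvPolynomial.coe_basisMonomials]
  rw [h2, toVar, Module.Basis.constr_basis]

lemma exp_inj {n b s : ℕ} {J : Fin b × Fin s → (Fin (n + 2) → ℕ)} (hJ : Function.Injective J)
    {f f' : Fin b → Fin s}
    (he : (∑ t : Fin b, Finsupp.single (dd (J (t, f t))) 1) =
      ∑ t : Fin b, Finsupp.single (dd (J (t, f' t))) (1 : ℕ)) : f = f' := by
  classical
  funext t
  have h1 := DFunLike.congr_fun he (dd (J (t, f t)))
  rw [Finsupp.finsetSum_apply, Finsupp.finsetSum_apply] at h1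
  have h2 : 0 < ∑ t' : Fin b, (Finsupp.single (dd (J (t', f t'))) 1) (dd (J (t, f t))) := by
    apply Finset.sum_pos'
    · intro _ _; exact Nat.zero_le _
    · exact ⟨t, Finset.mem_univ _, by simp⟩
  rw [h1] at h2
  obtain ⟨t', _, ht'⟩ := Finset.exists_ne_zero_of_sum_ne_zero h2.ne'
  rw [Finsupp.single_apply] at ht'
  have h3 : dd (J (t', f' t')) = dd (J (t, f t)) := by
    by_contra hne
    rw [if_neg hne] at ht'
    exact ht' rfl
  have h4 := hJ (dd_inj h3)
  rw [Prod.mk.injEq] at h4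
  obtain ⟨h5, h6⟩ := h4
  subst h5
  exact h6.symm

end T1

/-- T1 -/
theorem dim_ge {b c n h s : ℕ} (hc : (n + 2) * h ≤ c) (hs : s * b ≤ h ^ (n + 2)) :
    s ^ b ≤ Module.finrank ℂ (Pleth b c (n + 3)) := by
  classical
  obtain ⟨J0⟩ : Nonempty (Fin b × Fin s ↪ (Fin (n + 2) → Fin h)) := by
    apply Function.Embedding.nonempty_of_card_le
    simp only [Fintype.card_prod, Fintype.card_fin, Fintype.card_pi, Finset.prod_const,
      Finset.card_univ]
    rw [mul_comm]
    exact hs
  obtain ⟨J, hJ⟩ : ∃ J : Fin b × Fin s → (Fin (n + 2) → ℕ), J = fun p i => (J0 p i : ℕ) :=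
    ⟨_, rfl⟩
  have hinj : Function.Injective J := by
    intro p q hpq
    apply J0.injective
    funext i
    apply Fin.ext
    rw [hJ] at hpq
    exact congrFun hpq i
  have hsum : ∀ p, ∑ i, J p i ≤ c := by
    intro p
    refine le_trans ?_ hc
    calc ∑ i, J p i ≤ ∑ _i : Fin (n + 2), h := by
          apply Finset.sum_le_sum
          intro i _
          rw [hJ]
          exact (J0 p i).2.le
      _ = (n + 2) * h := by simp
  choose x hx using fun p => T1.exists_vec (c := c) (J p) (hsum p)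
  obtain ⟨pt, hpt⟩ : ∃ pt : (Fin b → Fin s) → Pleth b c (n + 3),
      pt = fun f => SymmetricPower.tprod ℂ (fun t : Fin b => x (t, f t)) := ⟨_, rfl⟩
  have hPhi : ∀ f, T1.Phi b c n (pt f) =
      monomial (∑ t : Fin b, Finsupp.single (T1.dd (J (t, f t))) 1) 1 := by
    intro f
    have h0 : T1.Phi b c n (pt f) = ∏ t : Fin b, T1.toVar n (T1.phi0 c n (x (t, f t))) := by
      rw [hpt]
      unfold T1.Phi
      exact symLift_tprod _ _ _
    rw [h0, Finset.prod_congr rfl (fun t _ => hx (t, f t))]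
    rw [MvPolynomial.monomial_sum_one]
    rfl
  have hli : LinearIndependent ℂ pt := by
    apply LinearIndependent.of_comp (T1.Phi b c n)
    have h1 : (T1.Phi b c n : Pleth b c (n + 3) → MvPolynomial (Fin (n + 2) →₀ ℕ) ℂ) ∘ pt =
        (MvPolynomial.basisMonomials (Fin (n + 2) →₀ ℕ) ℂ) ∘
        (fun f : Fin b → Fin s => ∑ t : Fin b, Finsupp.single (T1.dd (J (t, f t))) 1) := by
      funext f
      rw [Function.comp_apply, hPhi, Function.comp_apply, MvPolynomial.coe_basisMonomials]
    rw [h1]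
    exact (MvPolynomial.basisMonomials (Fin (n + 2) →₀ ℕ) ℂ).linearIndependent.comp _
      (fun f f' hff => T1.exp_inj hinj hff)
  have : IsNoetherian ℂ (Pleth b c (n + 3)) := by
    let _ := Module.addCommMonoidToAddCommGroup ℂ (M := Pleth b c (n + 3))
    exact isNoetherian_of_isNoetherianRing_of_finite ℂ (Pleth b c (n + 3))
  have h2 := hli.fintype_card_le_finrank
  simpa using h2

end Vale.Agent.P181.FR
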