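import Vale.Agent.P181.R2.H415.Numer3

/-! Numbers for row V9 of Theorem V. -/

set_option autoImplicit false

namespace Vale.Agent.P181.FR

open Filter

/-- Replacing `b` by `B ≥ b - K` costs a constant factor. -/
theorem numV_shift (n K : ℕ) : ∃ Q : ℕ, 1 ≤ Q ∧ ∀ a b B : ℕ, 1 ≤ a → a ≤ B → b ≤ B + K →
    ((b + 1) ^ (n + 2) + a) ^ a ≤ Q * ((B + 1) ^ (n + 2) + a) ^ a := by
  obtain ⟨Q, hQ⟩ := exists_nat_ge (Real.exp ((K : ℝ) * (n + 2)))
  have hQ1 : (1 : ℝ) ≤ Q := (Real.one_le_exp (by positivity)).trans hQ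
  refine ⟨Q, by exact_mod_cast hQ1, fun a b B ha haB hb => ?_⟩
  have hx : (0 : ℝ) < a := by exact_mod_cast ha
  have h1 : (b : ℝ) + 1 ≤ Real.exp ((K : ℝ) / a) * (B + 1) := by
    have h2 : (K : ℝ) / a + 1 ≤ Real.exp ((K : ℝ) / a) := Real.add_one_le_exp _
    have h3 : (b : ℝ) ≤ B + K := by exact_mod_cast hb
    have h4 : (a : ℝ) ≤ B := by exact_mod_cast haB
    have h5 : (K : ℝ) ≤ (K : ℝ) / a * (B + 1) := by
      rw [div_mul_eq_mul_div, le_div_iff₀ hx]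
      have : (0 : ℝ) ≤ K := K.cast_nonneg
      nlinarith
    have h6 : ((K : ℝ) / a + 1) * (B + 1) ≤ Real.exp ((K : ℝ) / a) * (B + 1) :=
      mul_le_mul_of_nonneg_right h2 (by positivity)
    nlinarith
  have h2 : ((b : ℝ) + 1) ^ (n + 2) + a ≤
      Real.exp ((K : ℝ) * (n + 2) / a) * (((B : ℝ) + 1) ^ (n + 2) + a) := by
    have h3 : ((b : ℝ) + 1) ^ (n + 2) ≤ (Real.exp ((K : ℝ) / a) * (B + 1)) ^ (n + 2) :=
      pow_le_pow_left₀ (by positivity) h1 _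
    rw [mul_pow, ← Real.exp_nat_mul] at h3
    have h4 : ((n + 2 : ℕ) : ℝ) * ((K : ℝ) / a) = (K : ℝ) * (n + 2) / a := by
      push_cast
      ring
    rw [h4] at h3
    have h5 : (1 : ℝ) ≤ Real.exp ((K : ℝ) * (n + 2) / a) := Real.one_le_exp (by positivity)
    nlinarith
  have h3 : (((b : ℝ) + 1) ^ (n + 2) + a) ^ a ≤ Q * (((B : ℝ) + 1) ^ (n + 2) + a) ^ a := by
    calc (((b : ℝ) + 1) ^ (n + 2) + a) ^ a
        ≤ (Real.exp ((K : ℝ) * (n + 2) / a) * (((B : ℝ) + 1) ^ (n + 2) + a)) ^ a :=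
          pow_le_pow_left₀ (by positivity) h2 _
      _ = Real.exp ((K : ℝ) * (n + 2)) * (((B : ℝ) + 1) ^ (n + 2) + a) ^ a := by
          rw [mul_pow, ← Real.exp_nat_mul]
          congr 2
          field_simp
      _ ≤ Q * (((B : ℝ) + 1) ^ (n + 2) + a) ^ a := by
          apply mul_le_mul_of_nonneg_right hQ (by positivity)
  exact_mod_cast h3

theorem numV_last {n a b B c h s Q E : ℕ} (hQ1 : 1 ≤ Q) (ha : 1 ≤ a) (h2Q : 2 * Q ≤ a)
    (haB : a ≤ B) (hc3 : (n + 2) * h ≤ c) (hc4 : s * B ≤ h ^ (n + 2))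
    (hQ : ((b + 1) ^ (n + 2) + a) ^ a ≤ Q * ((B + 1) ^ (n + 2) + a) ^ a)
    (hc5 : ∀ L' : ℕ, a.factorial * L' ≤ ((B + 1) ^ (n + 2) + a) ^ a →
      L' * (B * c + 1) ^ (E + (n + 3)) ≤ s ^ B) (L : ℕ)
    (hL : a.factorial * L ≤ ((b + 1) ^ (n + 2) + a) ^ a) :
    L * (B * c + 1) ^ E ≤ s ^ B := by
  have hQp : 0 < Q := hQ1
  have hone : a.factorial * 1 ≤ ((B + 1) ^ (n + 2) + a) ^ a := by
    rw [mul_one]
    exact (Nat.factorial_le_pow a).trans (Nat.pow_le_pow_left (by omega) a)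
  have hcpos : 1 ≤ c := by
    by_contra hc
    have hc0 : c = 0 := by omega
    have hh : h = 0 := by
      rw [hc0] at hc3
      rcases Nat.eq_zero_or_pos h with h0 | h0
      · exact h0
      · have : 0 < (n + 2) * h := by positivity
        omega
    have hs : s = 0 := by
      rw [hh, zero_pow (by omega)] at hc4
      rcases Nat.eq_zero_or_pos s with h0 | h0
      · exact h0
      · have : 0 < s * B := Nat.mul_pos h0 (by omega)
        omega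
    have h1 := hc5 1 hone
    rw [hs, zero_pow (by omega), one_mul] at h1
    have : 0 < (B * c + 1) ^ (E + (n + 3)) := by positivity
    omega
  have hQB : 2 * Q ≤ (B * c + 1) ^ (n + 3) := by
    have h1 : B * c + 1 ≤ (B * c + 1) ^ (n + 3) := Nat.le_self_pow (by omega) _
    have h2 : B * 1 ≤ B * c := Nat.mul_le_mul_left _ hcpos
    omega
  have hsm : a.factorial * L ≤ Q * ((B + 1) ^ (n + 2) + a) ^ a := hL.trans hQ
  obtain ⟨L', hL1, hL2⟩ : ∃ L' : ℕ, a.factorial * L' ≤ ((B + 1) ^ (n + 2) + a) ^ a ∧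
      L ≤ 2 * Q * L' := by
    have h1 : L < Q * (L / Q) + Q := by
      have := Nat.lt_mul_div_succ L hQp
      rw [Nat.mul_succ] at this
      exact this
    rcases Nat.eq_zero_or_pos (L / Q) with h0 | h0
    · refine ⟨1, hone, ?_⟩
      rw [h0] at h1
      omega
    · refine ⟨L / Q, ?_, ?_⟩
      · have h1 : Q * (a.factorial * (L / Q)) ≤ Q * ((B + 1) ^ (n + 2) + a) ^ a := by
          calc Q * (a.factorial * (L / Q)) = a.factorial * (Q * (L / Q)) := by ring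
            _ ≤ a.factorial * L := Nat.mul_le_mul_left _ (Nat.mul_div_le L Q)
            _ ≤ _ := hsm
        exact Nat.le_of_mul_le_mul_left h1 hQp
      · have h3 : Q * 1 ≤ Q * (L / Q) := Nat.mul_le_mul_left _ h0
        have h4 : 2 * Q * (L / Q) = Q * (L / Q) + Q * (L / Q) := by ring
        omega
  have h5 := hc5 L' hL1
  calc L * (B * c + 1) ^ E
      ≤ 2 * Q * L' * (B * c + 1) ^ E := Nat.mul_le_mul_right _ hL2
    _ = L' * ((B * c + 1) ^ E * (2 * Q)) := by ring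
    _ ≤ L' * ((B * c + 1) ^ E * (B * c + 1) ^ (n + 3)) :=
        Nat.mul_le_mul_left _ (Nat.mul_le_mul_left _ hQB)
    _ = L' * (B * c + 1) ^ (E + (n + 3)) := by rw [← pow_add _ E (n + 3)]
    _ ≤ s ^ B := h5

theorem numV_mid {n a b B c k K N0 N1 : ℕ} {κ : ℝ} (hκ : 0 < κ) (ha : 1 ≤ a) (hab : a ≤ b)
    (hBb : B ≤ b) (hkb : k ≤ b) (b2 : 3 * (N1 : ℝ) ≤ a * κ) (b3 : 3 * (K : ℝ) ≤ a * κ)
    (b4 : 2 * ((K : ℝ) + N0) ≤ a) (hce : (c : ℝ) * (9 / κ + 6 * (n + 3)) ≤ a) :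
    K + (3 * (n + 3) * c + N0) ≤ a ∧
      ((3 * (B * c) + k * N1 + K * a : ℕ) : ℝ) ≤ κ * (a * b) := by
  have hx : (0 : ℝ) < a := by exact_mod_cast ha
  have hc0 : (0 : ℝ) ≤ c := by positivity
  have hn0 : (0 : ℝ) ≤ n := by positivity
  have hexp : (c : ℝ) * (9 / κ + 6 * (n + 3)) = c * (9 / κ) + 6 * (n + 3) * c := by ring
  rw [hexp] at hce
  have q1 : (0 : ℝ) ≤ c * (9 / κ) := by positivity
  have q2 : (0 : ℝ) ≤ 6 * ((n : ℝ) + 3) * c := by positivity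
  have hc7 : 9 * (c : ℝ) ≤ κ * a := by
    have h2 : (c : ℝ) * (9 / κ) * κ ≤ a * κ := mul_le_mul_of_nonneg_right (by linarith) hκ.le
    have h3 : (c : ℝ) * (9 / κ) * κ = 9 * c := by field_simp
    linarith
  refine ⟨?_, ?_⟩
  · have : ((K + (3 * (n + 3) * c + N0) : ℕ) : ℝ) ≤ a := by
      push_cast
      linarith
    exact_mod_cast this
  · have hkr : (k : ℝ) ≤ b := by exact_mod_cast hkb
    have hBr2 : (B : ℝ) ≤ b := by exact_mod_cast hBb
    have hab' : (a : ℝ) ≤ b := by exact_mod_cast hab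
    have hb0 : (0 : ℝ) ≤ b := by positivity
    have e1 : (B : ℝ) * (9 * c) ≤ b * (κ * a) := mul_le_mul hBr2 hc7 (by positivity) hb0
    have e2 : (k : ℝ) * (3 * N1) ≤ b * (a * κ) := mul_le_mul hkr b2 (by positivity) hb0
    have e3 : (3 * (K : ℝ)) * a ≤ (a * κ) * b := mul_le_mul b3 hab' hx.le (by positivity)
    push_cast
    linarith

theorem numV (n : ℕ) {δ κ : ℝ} (hδ : 0 < δ) (hκ : 0 < κ) (K C1 N0 N1 N : ℕ) (hN : 0 < N) :
    ∃ A : ℕ, ∀ a b : ℕ, A ≤ a → (1 + δ) * a ≤ b → b ≤ C1 * a → ∃ k c h s : ℕ,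
      (n + 3) ∣ k * N ∧ K ≤ k * N ∧ K + (3 * (n + 3) * c + N0) ≤ a ∧ k * N + K ≤ b ∧
      ((3 * (k * N * c) + k * N1 + K * a : ℕ) : ℝ) ≤ κ * (a * b) ∧
      (n + 2) * h ≤ c ∧ s * (k * N) ≤ h ^ (n + 2) ∧
      ∀ L : ℕ, a.factorial * L ≤ ((b + 1) ^ (n + 2) + a) ^ a →
        L * (k * N * c + 1) ^ ((n + 3) * (n + 3)) ≤ s ^ (k * N) := by
  obtain ⟨η, hη0, hη1, A1, hA1⟩ := numer3 n (half_pos hδ) C1
  obtain ⟨K', hK'⟩ : ∃ K' : ℕ, K' = K + (n + 3) * N := ⟨_, rfl⟩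
  obtain ⟨Q, hQ1, hQ⟩ := numV_shift n K'
  have hlim : Tendsto (fun a : ℕ => (a : ℝ) ^ η) atTop atTop :=
    (tendsto_rpow_atTop hη0).comp tendsto_natCast_atTop_atTop
  obtain ⟨A2, hA2⟩ := (hlim.eventually_ge_atTop (9 / κ + 6 * (n + 3))).exists_forall_of_atTop
  obtain ⟨A3, hA3⟩ := exists_nat_ge (2 * (K' : ℝ) / δ)
  obtain ⟨A4, hA4⟩ := exists_nat_ge (3 * (N1 : ℝ) / κ)
  obtain ⟨A5, hA5⟩ := exists_nat_ge (3 * (K : ℝ) / κ)
  refine ⟨A1 + A2 + A3 + A4 + A5 + 2 * (K + N0) + 2 * Q + K + 1, fun a b ha hab hb => ?_⟩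
  have ha1 : 1 ≤ a := by omega
  have hx : (0 : ℝ) < a := by exact_mod_cast ha1
  have b1 : 2 * (K' : ℝ) ≤ a * δ := by
    rw [← div_le_iff₀ hδ]
    exact hA3.trans (by exact_mod_cast (by omega : A3 ≤ a))
  have b2 : 3 * (N1 : ℝ) ≤ a * κ := by
    rw [← div_le_iff₀ hκ]
    exact hA4.trans (by exact_mod_cast (by omega : A4 ≤ a))
  have b3 : 3 * (K : ℝ) ≤ a * κ := by
    rw [← div_le_iff₀ hκ]
    exact hA5.trans (by exact_mod_cast (by omega : A5 ≤ a))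
  have b4 : 2 * ((K : ℝ) + N0) ≤ a := by exact_mod_cast (by omega : 2 * (K + N0) ≤ a)
  have haδ : 0 < a * δ := by positivity
  have habr : (a : ℝ) ≤ b := by nlinarith
  have hab' : a ≤ b := by exact_mod_cast habr
  -- the number of points
  have hNp : 0 < (n + 3) * N := by positivity
  have hbK : K' ≤ b := by
    have : (K' : ℝ) ≤ b := by nlinarith
    exact_mod_cast this
  obtain ⟨k', hk'⟩ : ∃ k' : ℕ, k' = (b - K) / ((n + 3) * N) := ⟨_, rfl⟩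
  have hB1 : k' * ((n + 3) * N) ≤ b - K := by
    rw [hk']
    exact Nat.div_mul_le_self _ _
  have hB2 : b - K < k' * ((n + 3) * N) + (n + 3) * N := by
    have := Nat.lt_div_mul_add (a := b - K) hNp
    rw [← hk'] at this
    exact this
  obtain ⟨k, hk⟩ : ∃ k : ℕ, k = (n + 3) * k' := ⟨_, rfl⟩
  obtain ⟨B, hB⟩ : ∃ B : ℕ, B = k * N := ⟨_, rfl⟩
  have hBe : k' * ((n + 3) * N) = B := by rw [hB, hk]; ring
  rw [hBe] at hB1 hB2
  have hBb : B + K ≤ b := by omega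
  have hbB : b ≤ B + K' := by omega
  have hBr : (b : ℝ) ≤ B + K' := by exact_mod_cast hbB
  have hB3 : (1 + δ / 2) * a ≤ B := by linarith
  have hB4 : B ≤ C1 * a := by omega
  obtain ⟨c, h, s, hc1, hc2, hc3, hc4, hc5⟩ := hA1 a B (by omega) hB3 hB4
  have haB : a ≤ B := by
    have : (a : ℝ) ≤ B := by linarith
    exact_mod_cast this
  have hce : (c : ℝ) * (9 / κ + 6 * (n + 3)) ≤ a := by
    have h1 := hA2 a (by omega)
    have h2 : (c : ℝ) * (9 / κ + 6 * (n + 3)) ≤ (a : ℝ) ^ (1 - η) * (a : ℝ) ^ η :=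
      mul_le_mul hc1 h1 (by positivity) (by positivity)
    rwa [← Real.rpow_add hx, sub_add_cancel, Real.rpow_one] at h2
  have hkb : k ≤ b := by
    have : k ≤ B := by
      rw [hB]
      exact Nat.le_mul_of_pos_right _ hN
    omega
  obtain ⟨m1, m2⟩ := numV_mid (n := n) (B := B) (k := k) (N0 := N0) hκ ha1 hab' (by omega) hkb b2
    b3 b4 hce
  rw [hB] at hBb haB hc4 hc5 m2
  refine ⟨k, c, h, s, ⟨k' * N, by rw [hk]; ring⟩, by omega, m1, hBb, m2, hc3, hc4, ?_⟩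
  exact numV_last hQ1 ha1 (by omega) haB hc3 hc4 (hQ a b (k * N) ha1 haB (by rw [← hB]; exact hbB))
    hc5

end Vale.Agent.P181.FR
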