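import Mathlib

/-! Row T3 of P181.FewRowsInterior (helper959), typed by helper415: pure numbers. -/

set_option autoImplicit false

namespace Vale.Agent.P181.FR

open Filter

lemma n3_upper {n a b K L : ℕ} {x M C2 l : ℝ} (hM : M = (n : ℝ) + 2) (hx : x = (a : ℝ))
    (hx1 : 1 ≤ x) (hl : l = Real.log x) (hbx : (b : ℝ) + 1 ≤ (K + 1) * x)
    (hC2 : C2 = ((K : ℝ) + 1) ^ (n + 2) + 1)
    (hL : a.factorial * L ≤ ((b + 1) ^ (n + 2) + a) ^ a) :
    (L : ℝ) ≤ Real.exp (x * (Real.log C2 + (M - 1) * l) + x) := by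
  have hx0 : 0 < x := by linarith
  have hC2p : 0 < C2 := by rw [hC2]; positivity
  have h1 : (a.factorial : ℝ) * L ≤ (((b : ℝ) + 1) ^ (n + 2) + a) ^ a := by
    have h0 : ((a.factorial * L : ℕ) : ℝ) ≤ ((((b + 1) ^ (n + 2) + a) ^ a : ℕ) : ℝ) :=
      Nat.cast_le.mpr hL
    rw [Nat.cast_mul, Nat.cast_pow, Nat.cast_add, Nat.cast_pow, Nat.cast_add, Nat.cast_one] at h0
    exact h0
  have h2 : ((b : ℝ) + 1) ^ (n + 2) + a ≤ C2 * x ^ (n + 1) * x := by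
    have h3 : ((b : ℝ) + 1) ^ (n + 2) ≤ ((K + 1) * x) ^ (n + 2) :=
      pow_le_pow_left₀ (by positivity) hbx _
    have h4 : x ≤ x ^ (n + 2) := by
      calc x = x ^ 1 := (pow_one x).symm
        _ ≤ x ^ (n + 2) := pow_le_pow_right₀ hx1 (by omega)
    rw [mul_pow] at h3
    rw [← hx, hC2]
    calc ((b : ℝ) + 1) ^ (n + 2) + x ≤ ((K : ℝ) + 1) ^ (n + 2) * x ^ (n + 2) + x ^ (n + 2) :=
          add_le_add h3 h4
      _ = (((K : ℝ) + 1) ^ (n + 2) + 1) * x ^ (n + 1) * x := by ring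
  have h5 : x ^ a / (a.factorial : ℝ) ≤ Real.exp x :=
    Real.pow_div_factorial_le_exp x hx0.le a
  have hf : (0 : ℝ) < a.factorial := by exact_mod_cast a.factorial_pos
  rw [div_le_iff₀ hf] at h5
  have h6 : (L : ℝ) * x ^ a ≤ ((C2 * x ^ (n + 1)) ^ a * Real.exp x) * x ^ a := by
    calc (L : ℝ) * x ^ a ≤ L * (Real.exp x * a.factorial) :=
          mul_le_mul_of_nonneg_left h5 (Nat.cast_nonneg L)
      _ = (a.factorial * L) * Real.exp x := by ring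
      _ ≤ (((b : ℝ) + 1) ^ (n + 2) + a) ^ a * Real.exp x :=
          mul_le_mul_of_nonneg_right h1 (Real.exp_pos x).le
      _ ≤ (C2 * x ^ (n + 1) * x) ^ a * Real.exp x := by
          apply mul_le_mul_of_nonneg_right _ (Real.exp_pos x).le
          exact pow_le_pow_left₀ (by positivity) h2 _
      _ = ((C2 * x ^ (n + 1)) ^ a * Real.exp x) * x ^ a := by
          rw [mul_pow (C2 * x ^ (n + 1)) x a]
          ring
  have h7 : (L : ℝ) ≤ (C2 * x ^ (n + 1)) ^ a * Real.exp x :=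
    le_of_mul_le_mul_right h6 (by positivity)
  refine h7.trans (le_of_eq ?_)
  have h8 : C2 * x ^ (n + 1) = Real.exp (Real.log C2 + (M - 1) * l) := by
    rw [Real.exp_add, Real.exp_log hC2p, mul_comm (M - 1) l, hl, Real.exp_mul,
      Real.exp_log hx0, hM]
    have : (n : ℝ) + 2 - 1 = ((n + 1 : ℕ) : ℝ) := by push_cast; ring
    rw [this, Real.rpow_natCast]
  rw [h8, Real.exp_add (x * _) x, mul_comm x, Real.exp_mul, hx, Real.rpow_natCast]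

lemma n3_mid {b c E K : ℕ} {x l : ℝ} (hx1 : 1 ≤ x) (hl : l = Real.log x)
    (hbr : (b : ℝ) ≤ K * x) (hcx : (c : ℝ) ≤ x) :
    ((b : ℝ) * c + 1) ^ E ≤ Real.exp (E * (Real.log (K + 1) + 2 * l)) := by
  have hx0 : 0 < x := by linarith
  have h1 : (b : ℝ) * c + 1 ≤ (K + 1) * x ^ 2 := by
    have h2 : (b : ℝ) * c ≤ (K * x) * x :=
      mul_le_mul hbr hcx (Nat.cast_nonneg c) (by positivity)
    nlinarith
  have h3 : Real.exp (E * (Real.log (K + 1) + 2 * l)) = ((K + 1) * x ^ 2) ^ E := by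
    rw [mul_comm (E : ℝ), Real.exp_mul, Real.rpow_natCast, Real.exp_add,
      Real.exp_log (by positivity), mul_comm 2 l, hl, Real.exp_mul, Real.exp_log hx0]
    norm_num
  rw [h3]
  exact pow_le_pow_left₀ (by positivity) h1 _

lemma n3_lower {n b c h s K : ℕ} {x M α η C1 l y δ : ℝ} (hM : M = (n : ℝ) + 2) (hM0 : 0 < M)
    (hx1 : 1 ≤ x) (hl : l = Real.log x) (hα : α = M * (1 - η) - 1)
    (hC1 : C1 = 2 * (K + 1) * (2 * M) ^ (n + 2)) (hy : y = x ^ (1 - η)) (f1 : 2 * M ≤ y)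
    (f4 : C1 ≤ x ^ α) (hbr : (b : ℝ) ≤ K * x) (hb0 : (0 : ℝ) < b) (hyc : y < c + 1)
    (hab : (1 + δ) * x ≤ b)
    (hh2 : c + 1 ≤ (n + 2) * (h + 1)) (hs2 : h ^ (n + 2) + 1 ≤ b * (s + 1)) :
    Real.exp ((1 + δ) * x * (α * l - Real.log C1)) ≤ (s : ℝ) ^ b := by
  have hx0 : 0 < x := by linarith
  have hC1p : 0 < C1 := by rw [hC1]; positivity
  have hy0 : 0 < y := by rw [hy]; positivity
  have hK0 : (0 : ℝ) ≤ K := Nat.cast_nonneg K
  have hhy : y / (2 * M) ≤ h := by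
    have h1 : (c : ℝ) + 1 ≤ M * (h + 1) := by
      rw [hM]
      exact_mod_cast hh2
    have h2 : y ≤ M * h + M := by linarith
    rw [div_le_iff₀ (by positivity)]
    nlinarith
  have hhM : x ^ α * x / (2 * M) ^ (n + 2) ≤ (h : ℝ) ^ (n + 2) := by
    have h1 : x ^ α * x = y ^ (n + 2) := by
      rw [hy, ← Real.rpow_natCast, ← Real.rpow_mul hx0.le]
      have h2 : (1 - η) * ((n + 2 : ℕ) : ℝ) = α + 1 := by
        rw [hα, hM]
        push_cast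
        ring
      rw [h2, Real.rpow_add hx0, Real.rpow_one]
    rw [h1, ← div_pow]
    exact pow_le_pow_left₀ (by positivity) hhy _
  have hsx : x ^ α / C1 ≤ s := by
    have h1 : (h : ℝ) ^ (n + 2) + 1 ≤ b * (s + 1) := by exact_mod_cast hs2
    have h2 : x ^ α * x / (2 * M) ^ (n + 2) ≤ ((K + 1) * x) * (s + 1) := by
      calc x ^ α * x / (2 * M) ^ (n + 2) ≤ (h : ℝ) ^ (n + 2) := hhM
        _ ≤ b * (s + 1) := by linarith
        _ ≤ ((K + 1) * x) * (s + 1) := by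
          apply mul_le_mul_of_nonneg_right _ (by positivity)
          linarith
    have h3 : 2 * (x ^ α / C1) ≤ s + 1 := by
      have h4 : 2 * (x ^ α / C1) = (x ^ α * x / (2 * M) ^ (n + 2)) / ((K + 1) * x) := by
        rw [hC1]
        field_simp
      rw [h4, div_le_iff₀ (by positivity)]
      linarith
    have h5 : 1 ≤ x ^ α / C1 := by rwa [one_le_div hC1p]
    linarith
  have hs0 : (0 : ℝ) < s := lt_of_lt_of_le (by positivity) hsx
  have hlogs : α * l - Real.log C1 ≤ Real.log s := by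
    have h1 : Real.log (x ^ α / C1) = α * l - Real.log C1 := by
      rw [Real.log_div (by positivity) hC1p.ne', Real.log_rpow hx0, hl]
    rw [← h1]
    exact Real.log_le_log (by positivity) hsx
  have hpos : 0 ≤ α * l - Real.log C1 := by
    have h1 : Real.log C1 ≤ Real.log (x ^ α) := Real.log_le_log hC1p f4
    rw [Real.log_rpow hx0, ← hl] at h1
    linarith
  have h1 : (s : ℝ) ^ b = Real.exp (b * Real.log s) := by
    rw [mul_comm, Real.exp_mul, Real.exp_log hs0, Real.rpow_natCast]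
  rw [h1]
  apply Real.exp_le_exp.mpr
  calc (1 + δ) * x * (α * l - Real.log C1) ≤ b * (α * l - Real.log C1) :=
        mul_le_mul_of_nonneg_right hab hpos
    _ ≤ b * Real.log s := mul_le_mul_of_nonneg_left hlogs hb0.le

lemma n3_fin {x l δ M α κ C1 C2 : ℝ} {E K : ℕ} (hx0 : 0 < x) (hl0 : 0 ≤ l) (hκ0 : 0 < κ)
    (hκα : (1 + δ) * α = (M - 1) + κ)
    (f5 : (2 + Real.log C2 + (1 + δ) * Real.log C1) / κ ≤ l)
    (f6 : l ≤ (1 / (4 * ((E : ℝ) + 1))) * x) (f7 : 2 * ((E : ℝ) * Real.log (K + 1)) ≤ x) :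
    (x * (Real.log C2 + (M - 1) * l) + x) + E * (Real.log (K + 1) + 2 * l) ≤
      (1 + δ) * x * (α * l - Real.log C1) := by
  have g1 : 2 + Real.log C2 + (1 + δ) * Real.log C1 ≤ κ * l := by
    rw [div_le_iff₀ hκ0] at f5
    linarith
  have g2 : (E : ℝ) * (Real.log (K + 1) + 2 * l) ≤ x := by
    have g4 : ((E : ℝ) + 1) * l ≤ x / 4 := by
      calc ((E : ℝ) + 1) * l ≤ ((E : ℝ) + 1) * (1 / (4 * ((E : ℝ) + 1)) * x) :=
            mul_le_mul_of_nonneg_left f6 (by positivity)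
        _ = x / 4 := by field_simp
    linarith
  have g5 : (1 + δ) * x * (α * l - Real.log C1) =
      x * ((1 + δ) * α * l - (1 + δ) * Real.log C1) := by ring
  rw [g5, hκα]
  have g6 : x * (2 + Real.log C2 + (1 + δ) * Real.log C1) ≤ x * (κ * l) :=
    mul_le_mul_of_nonneg_left g1 hx0.le
  nlinarith

theorem numer3 (n : ℕ) {δ : ℝ} (hδ : 0 < δ) (K : ℕ) : ∃ η : ℝ, 0 < η ∧ η < 1 ∧ ∃ A : ℕ,
    ∀ a b : ℕ, A ≤ a → (1 + δ) * a ≤ b → b ≤ K * a → ∃ c h s : ℕ,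
      (c : ℝ) ≤ (a : ℝ) ^ (1 - η) ∧ c + (n + 3) ≤ a ∧ (n + 2) * h ≤ c ∧ s * b ≤ h ^ (n + 2) ∧
      ∀ L : ℕ, a.factorial * L ≤ ((b + 1) ^ (n + 2) + a) ^ a →
        L * (b * c + 1) ^ ((n + 3) * (n + 3) + (n + 3)) ≤ s ^ b := by
  obtain ⟨M, hM⟩ : ∃ M : ℝ, M = (n : ℝ) + 2 := ⟨_, rfl⟩
  have hM2 : 2 ≤ M := by
    rw [hM]
    have : (0 : ℝ) ≤ n := Nat.cast_nonneg n
    linarith
  have hM0 : 0 < M := by linarith
  obtain ⟨η, hη⟩ : ∃ η : ℝ, η = δ * (M - 1) / (2 * (1 + δ) * M) := ⟨_, rfl⟩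
  have hden : 0 < 2 * (1 + δ) * M := by positivity
  have hη0 : 0 < η := by
    rw [hη]
    apply div_pos _ hden
    apply mul_pos hδ
    linarith
  have hη2 : η < 1 / 2 := by
    rw [hη, div_lt_iff₀ hden]
    nlinarith [mul_pos hδ hM0]
  have hηM : M * η * (1 + δ) * 2 = δ * (M - 1) := by
    rw [hη]
    field_simp
  obtain ⟨α, hα⟩ : ∃ α : ℝ, α = M * (1 - η) - 1 := ⟨_, rfl⟩
  have hα0 : 0 < α := by
    rw [hα]
    nlinarith
  obtain ⟨κ, hκ⟩ : ∃ κ : ℝ, κ = δ * (M - 1) / 2 := ⟨_, rfl⟩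
  have hκ0 : 0 < κ := by
    rw [hκ]
    have : 0 < δ * (M - 1) := mul_pos hδ (by linarith)
    linarith
  have hκα : (1 + δ) * α = (M - 1) + κ := by
    rw [hα, hκ]
    linarith [hηM, show (1 + δ) * (M * (1 - η) - 1) = (1 + δ) * (M - 1) - M * η * (1 + δ) by ring]
  obtain ⟨C1, hC1⟩ : ∃ C : ℝ, C = 2 * (K + 1) * (2 * M) ^ (n + 2) := ⟨_, rfl⟩
  obtain ⟨C2, hC2⟩ : ∃ C : ℝ, C = ((K : ℝ) + 1) ^ (n + 2) + 1 := ⟨_, rfl⟩
  obtain ⟨E, hE⟩ : ∃ E : ℕ, E = (n + 3) * (n + 3) + (n + 3) := ⟨_, rfl⟩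
  have hK0 : (0 : ℝ) ≤ K := Nat.cast_nonneg K
  have hC1p : 0 < C1 := by rw [hC1]; positivity
  have hC2p : 0 < C2 := by rw [hC2]; positivity
  have hnat : Tendsto (fun a : ℕ => (a : ℝ)) atTop atTop := tendsto_natCast_atTop_atTop
  have e1 : ∀ᶠ a : ℕ in atTop, 2 * M ≤ (a : ℝ) ^ (1 - η) :=
    ((tendsto_rpow_atTop (by linarith : 0 < 1 - η)).comp hnat).eventually_ge_atTop _
  have e2 : ∀ᶠ a : ℕ in atTop, 2 ≤ (a : ℝ) ^ η :=
    ((tendsto_rpow_atTop hη0).comp hnat).eventually_ge_atTop _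
  have e3 : ∀ᶠ a : ℕ in atTop, 2 * ((n : ℝ) + 3) ≤ a := hnat.eventually_ge_atTop _
  have e4 : ∀ᶠ a : ℕ in atTop, C1 ≤ (a : ℝ) ^ α :=
    ((tendsto_rpow_atTop hα0).comp hnat).eventually_ge_atTop _
  have e5 : ∀ᶠ a : ℕ in atTop,
      (2 + Real.log C2 + (1 + δ) * Real.log C1) / κ ≤ Real.log a :=
    (Real.tendsto_log_atTop.comp hnat).eventually_ge_atTop _
  have e6 : ∀ᶠ a : ℕ in atTop, Real.log a ≤ (1 / (4 * ((E : ℝ) + 1))) * a := by
    have h1 := (Real.isLittleO_log_id_atTop.def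
      (by positivity : (0 : ℝ) < 1 / (4 * ((E : ℝ) + 1))))
    have h2 := hnat.eventually h1
    filter_upwards [h2] with a ha
    refine (le_abs_self _).trans ?_
    simpa using ha
  have e7 : ∀ᶠ a : ℕ in atTop, 2 * ((E : ℝ) * Real.log (K + 1)) ≤ a :=
    hnat.eventually_ge_atTop _
  have e8 : ∀ᶠ a : ℕ in atTop, 1 ≤ a := eventually_ge_atTop 1
  obtain ⟨A, hA⟩ := Filter.eventually_atTop.mp
    (((((((e1.and e2).and e3).and e4).and e5).and e6).and e7).and e8)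
  refine ⟨η, hη0, by linarith, A, ?_⟩
  intro a b hAa hab hbK
  obtain ⟨⟨⟨⟨⟨⟨⟨f1, f2⟩, f3⟩, f4⟩, f5⟩, f6⟩, f7⟩, f8⟩ := hA a hAa
  obtain ⟨x, hx⟩ : ∃ x : ℝ, x = (a : ℝ) := ⟨_, rfl⟩
  rw [← hx] at f1 f2 f3 f4 f5 f6 f7 hab
  have hx1 : 1 ≤ x := by rw [hx]; exact_mod_cast f8
  have hx0 : 0 < x := by linarith
  obtain ⟨l, hl⟩ : ∃ l : ℝ, l = Real.log x := ⟨_, rfl⟩
  have hl0 : 0 ≤ l := by rw [hl]; exact Real.log_nonneg hx1
  have hbr : (b : ℝ) ≤ K * x := by rw [hx]; exact_mod_cast hbK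
  have hb0 : (0 : ℝ) < b := lt_of_lt_of_le (by positivity) hab
  have hbn : 0 < b := by exact_mod_cast hb0
  obtain ⟨y, hy⟩ : ∃ y : ℝ, y = x ^ (1 - η) := ⟨_, rfl⟩
  have hy0 : 0 < y := by rw [hy]; positivity
  obtain ⟨c, hc⟩ : ∃ c : ℕ, c = ⌊y⌋₊ := ⟨_, rfl⟩
  have hcy : (c : ℝ) ≤ y := by rw [hc]; exact Nat.floor_le hy0.le
  have hyc : y < c + 1 := by rw [hc]; exact Nat.lt_floor_add_one y
  obtain ⟨h, hh⟩ : ∃ h : ℕ, h = c / (n + 2) := ⟨_, rfl⟩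
  have hh1 : (n + 2) * h ≤ c := by rw [hh]; exact Nat.mul_div_le _ _
  have hh2 : c + 1 ≤ (n + 2) * (h + 1) := by
    rw [hh]
    exact Nat.lt_mul_div_succ c (by omega)
  obtain ⟨s, hs⟩ : ∃ s : ℕ, s = h ^ (n + 2) / b := ⟨_, rfl⟩
  have hs1 : s * b ≤ h ^ (n + 2) := by rw [hs]; exact Nat.div_mul_le_self _ _
  have hs2 : h ^ (n + 2) + 1 ≤ b * (s + 1) := by
    rw [hs]
    exact Nat.lt_mul_div_succ _ hbn
  have hyx : y * x ^ η = x := by
    rw [hy, ← Real.rpow_add hx0]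
    simp
  have hy2 : 2 * y ≤ x := by
    calc 2 * y = y * 2 := by ring
      _ ≤ y * x ^ η := by gcongr
      _ = x := hyx
  have hcx : (c : ℝ) ≤ x := by linarith
  refine ⟨c, h, s, ?_, ?_, hh1, hs1, ?_⟩
  · rw [← hx, ← hy]
    exact hcy
  · have : (c : ℝ) + ((n : ℝ) + 3) ≤ a := by
      rw [← hx]
      linarith
    exact_mod_cast this
  intro L hL
  rw [← hy] at f1
  have hbx : (b : ℝ) + 1 ≤ (K + 1) * x := by linarith
  have hLx := n3_upper hM hx hx1 hl hbx hC2 hL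
  have hmid := n3_mid (E := E) hx1 hl hbr hcx
  have hsb := n3_lower (δ := δ) hM hM0 hx1 hl hα hC1 hy f1 f4 hbr hb0 hyc hab hh2 hs2
  rw [← hl] at f5 f6
  have hfin := n3_fin (C1 := C1) (C2 := C2) hx0 hl0 hκ0 hκα f5 f6 f7
  have hreal : (L : ℝ) * ((b : ℝ) * c + 1) ^ E ≤ (s : ℝ) ^ b := by
    calc (L : ℝ) * ((b : ℝ) * c + 1) ^ E
        ≤ Real.exp (x * (Real.log C2 + (M - 1) * l) + x) *
          Real.exp (E * (Real.log (K + 1) + 2 * l)) :=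
          mul_le_mul hLx hmid (by positivity) (Real.exp_pos _).le
      _ = Real.exp ((x * (Real.log C2 + (M - 1) * l) + x) +
          E * (Real.log (K + 1) + 2 * l)) := (Real.exp_add _ _).symm
      _ ≤ Real.exp ((1 + δ) * x * (α * l - Real.log C1)) := Real.exp_le_exp.mpr hfin
      _ ≤ (s : ℝ) ^ b := hsb
  have hnn : ((L * (b * c + 1) ^ E : ℕ) : ℝ) ≤ ((s ^ b : ℕ) : ℝ) := by
    rw [Nat.cast_mul, Nat.cast_pow, Nat.cast_add, Nat.cast_mul, Nat.cast_one, Nat.cast_pow]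
    exact hreal
  rw [← hE]
  exact Nat.cast_le.mp hnn

end Vale.Agent.P181.FR
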