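import Vale.Agent.P181.R2.H207.KDefs

/-! Row K3 (existence of the tilt), typed by helper415. -/

set_option autoImplicit false

namespace Vale.Agent.P181.KT

open Finset

lemma k3_lower {m c : ℕ} (x η : Fin m → ℝ) (hx : ∑ i, x i = c) (hx0 : ∀ i, 0 < x i)
    (p q : Fin m) (hp : ∀ k, η k ≤ η p) :
    Real.exp (x q * (η p - η q)) ≤
      ∑ u ∈ Mn m c, Real.exp (∑ k, η k * ((u k : ℝ) - x k)) := by
  classical
  have hmem : (Pi.single p c : Fin m → ℕ) ∈ Mn m c := by
    rw [Mn, Finset.mem_piAntidiag]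
    refine ⟨?_, fun _ _ => Finset.mem_univ _⟩
    rw [Finset.sum_pi_single']
    simp
  have h1 : Real.exp (∑ k, η k * (((Pi.single p c : Fin m → ℕ) k : ℝ) - x k)) ≤
      ∑ u ∈ Mn m c, Real.exp (∑ k, η k * ((u k : ℝ) - x k)) :=
    Finset.single_le_sum (f := fun u : Fin m → ℕ => Real.exp (∑ k, η k * ((u k : ℝ) - x k)))
      (fun u _ => (Real.exp_pos _).le) hmem
  refine le_trans (Real.exp_le_exp.mpr ?_) h1
  have h2 : ∑ k, η k * (((Pi.single p c : Fin m → ℕ) k : ℝ) - x k) =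
      ∑ k, x k * (η p - η k) := by
    have h3 : ∑ k, η k * (((Pi.single p c : Fin m → ℕ) k : ℝ)) = η p * c := by
      rw [Finset.sum_eq_single p]
      · simp
      · intro k _ hk
        rw [Pi.single_eq_of_ne hk]
        simp
      · simp
    simp_rw [mul_sub]
    rw [Finset.sum_sub_distrib, Finset.sum_sub_distrib, h3, ← Finset.sum_mul, hx]
    rw [mul_comm (c : ℝ)]
    congr 1
    exact Finset.sum_congr rfl fun k _ => mul_comm _ _
  rw [h2]
  exact Finset.single_le_sum (f := fun k => x k * (η p - η k))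
    (fun k _ => mul_nonneg (hx0 k).le (sub_nonneg.mpr (hp k))) (Finset.mem_univ q)

/-- K3 (the tilt exists). -/
theorem k3 : ∀ {m c : ℕ} (x : Fin m → ℝ), 1 ≤ m → 1 ≤ c → ∑ i, x i = c → (∀ i, 0 < x i) →
    ∃ η : Fin m → ℝ, Mean m c η x := by
  intro m c x hm _ hx hx0
  classical
  have : Nonempty (Fin m) := ⟨⟨0, by omega⟩⟩
  obtain ⟨F, hF⟩ : ∃ F : (Fin m → ℝ) → ℝ, F = fun η =>
      ∑ u ∈ Mn m c, Real.exp (∑ k, η k * ((u k : ℝ) - x k)) := ⟨_, rfl⟩
  have hsum : ∀ u ∈ Mn m c, ∑ k, ((u k : ℝ) - x k) = 0 := by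
    intro u hu
    rw [Mn, Finset.mem_piAntidiag] at hu
    rw [Finset.sum_sub_distrib, hx, ← hu.1]
    push_cast
    ring
  have hshift : ∀ (η : Fin m → ℝ) (s : ℝ), F (fun k => η k + s) = F η := by
    intro η s
    rw [hF]
    apply Finset.sum_congr rfl
    intro u hu
    congr 1
    simp_rw [add_mul]
    rw [Finset.sum_add_distrib, ← Finset.mul_sum, hsum u hu, mul_zero, add_zero]
  obtain ⟨q0, hq0⟩ := Finite.exists_min x
  obtain ⟨R, hR⟩ : ∃ R : ℝ, R = F 0 / x q0 := ⟨_, rfl⟩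
  have hF0 : 0 ≤ F 0 := by
    rw [hF]
    exact Finset.sum_nonneg fun u _ => (Real.exp_pos _).le
  have hR0 : 0 ≤ R := by rw [hR]; exact div_nonneg hF0 (hx0 q0).le
  have hcont : Continuous F := by
    rw [hF]
    fun_prop
  obtain ⟨η, hη, hmin⟩ := (isCompact_Icc (a := (0 : Fin m → ℝ)) (b := fun _ => R)).exists_isMinOn
    ⟨0, ⟨le_rfl, fun _ => hR0⟩⟩ hcont.continuousOn
  have hglob : ∀ ζ : Fin m → ℝ, F η ≤ F ζ := by
    intro ζ
    obtain ⟨p, hp⟩ := Finite.exists_max ζ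
    obtain ⟨q, hq⟩ := Finite.exists_min ζ
    by_cases h : ζ p - ζ q ≤ R
    · rw [← hshift ζ (-ζ q)]
      apply hmin
      refine ⟨fun k => ?_, fun k => ?_⟩
      · have := hq k
        simp only [Pi.zero_apply]
        linarith
      · have := hp k
        simp only
        linarith
    · push Not at h
      have h1 : F η ≤ F 0 := hmin ⟨le_rfl, fun _ => hR0⟩
      have h2 : F 0 ≤ Real.exp (x q * (ζ p - ζ q)) := by
        have h3 : F 0 ≤ x q * (ζ p - ζ q) := by
          have h4 : F 0 = x q0 * R := by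
            rw [hR]
            field_simp [(hx0 q0).ne']
          rw [h4]
          exact mul_le_mul (hq0 q) h.le hR0 (hx0 q).le
        have := Real.add_one_le_exp (x q * (ζ p - ζ q))
        linarith
      have h5 := k3_lower x ζ hx hx0 p q hp
      have h6 : F ζ = ∑ u ∈ Mn m c, Real.exp (∑ k, ζ k * ((u k : ℝ) - x k)) := by rw [hF]
      rw [← h6] at h5
      linarith
  refine ⟨η, fun i => ?_⟩
  have hder : HasDerivAt (fun t : ℝ => ∑ u ∈ Mn m c,
      Real.exp ((∑ k, η k * ((u k : ℝ) - x k)) + t * ((u i : ℝ) - x i)))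
      (∑ u ∈ Mn m c, Real.exp ((∑ k, η k * ((u k : ℝ) - x k)) + 0 * ((u i : ℝ) - x i)) *
        ((u i : ℝ) - x i)) 0 := by
    apply HasDerivAt.fun_sum
    intro u _
    apply HasDerivAt.exp
    have h1 := ((hasDerivAt_id (0 : ℝ)).mul_const ((u i : ℝ) - x i)).const_add
      (∑ k, η k * ((u k : ℝ) - x k))
    simpa using h1
  have hval : ∀ t : ℝ, (∑ u ∈ Mn m c,
      Real.exp ((∑ k, η k * ((u k : ℝ) - x k)) + t * ((u i : ℝ) - x i))) =
      F (η + Pi.single i t) := by
    intro t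
    rw [hF]
    apply Finset.sum_congr rfl
    intro u _
    congr 1
    simp_rw [Pi.add_apply, add_mul]
    rw [Finset.sum_add_distrib]
    congr 1
    rw [Finset.sum_eq_single i]
    · rw [Pi.single_eq_same]
    · intro k _ hk
      rw [Pi.single_eq_of_ne hk, zero_mul]
    · simp
  have hloc : IsLocalMin (fun t : ℝ => ∑ u ∈ Mn m c,
      Real.exp ((∑ k, η k * ((u k : ℝ) - x k)) + t * ((u i : ℝ) - x i))) 0 := by
    apply Filter.Eventually.of_forall
    intro t
    beta_reduce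
    rw [hval t, hval 0]
    simp only [Pi.single_zero, add_zero]
    exact hglob _
  have hzero := hloc.hasDerivAt_eq_zero hder
  have h1 : ∑ u ∈ Mn m c, Real.exp (∑ k, η k * ((u k : ℝ) - x k)) * ((u i : ℝ) - x i) = 0 := by
    simpa using hzero
  have h2 : ∀ u : Fin m → ℕ, Real.exp (∑ k, η k * ((u k : ℝ) - x k)) =
      Real.exp (∑ k, η k * (u k : ℝ)) * Real.exp (-∑ k, η k * x k) := by
    intro u
    rw [← Real.exp_add]
    congr 1
    simp_rw [mul_sub]
    rw [Finset.sum_sub_distrib]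
    ring
  have h3 : (∑ u ∈ Mn m c, ((u i : ℝ) * Real.exp (∑ k, η k * (u k : ℝ)) -
      x i * Real.exp (∑ k, η k * (u k : ℝ)))) * Real.exp (-∑ k, η k * x k) = 0 := by
    rw [← h1, Finset.sum_mul]
    apply Finset.sum_congr rfl
    intro u _
    rw [h2]
    ring
  have h4 : ∑ u ∈ Mn m c, ((u i : ℝ) * Real.exp (∑ k, η k * (u k : ℝ)) -
      x i * Real.exp (∑ k, η k * (u k : ℝ))) = 0 := by
    rcases mul_eq_zero.mp h3 with h | h
    · exact h
    · exact absurd h (Real.exp_pos _).ne'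
  rw [Finset.sum_sub_distrib, ← Finset.mul_sum] at h4
  unfold ZZ
  linarith

end Vale.Agent.P181.KT
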