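import Vale.Agent.P181.R2.H207.KDefs

/-! Row K7 (variance), typed by helper415. -/

set_option autoImplicit false

namespace Vale.Agent.P181.KT

open Finset

lemma k7_mem {m c : ℕ} (u : Fin m → ℕ) : u ∈ Mn m c ↔ ∑ k, u k = c := by
  simp [Mn, Finset.mem_piAntidiag]

lemma k7_swap_sum {m : ℕ} {i j : Fin m} (hij : i ≠ j) (z : Fin m → ℝ) (u : Fin m → ℕ) :
    ∑ k, z k * (u k : ℝ) - ∑ k, z k * (u (Equiv.swap i j k) : ℝ) =
      (z i - z j) * ((u i : ℝ) - u j) := by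
  rw [← Finset.sum_sub_distrib]
  rw [Fintype.sum_eq_add i j hij]
  · rw [Equiv.swap_apply_left, Equiv.swap_apply_right]
    ring
  · rintro k ⟨hk1, hk2⟩
    rw [Equiv.swap_apply_of_ne_of_ne hk1 hk2]
    ring

lemma k7_swap {m c : ℕ} (i j : Fin m) (f : (Fin m → ℕ) → ℝ) :
    ∑ u ∈ Mn m c, f (fun k => u (Equiv.swap i j k)) = ∑ u ∈ Mn m c, f u := by
  apply Finset.sum_nbij' (fun u k => u (Equiv.swap i j k)) (fun u k => u (Equiv.swap i j k))
  · intro u hu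
    rw [k7_mem] at hu ⊢
    rw [← hu]
    exact Equiv.sum_comp (Equiv.swap i j) u
  · intro u hu
    rw [k7_mem] at hu ⊢
    rw [← hu]
    exact Equiv.sum_comp (Equiv.swap i j) u
  · intro u _
    funext k
    simp
  · intro u _
    funext k
    simp
  · intro u _
    rfl

lemma k7_exp {t : ℝ} (ht : -1 ≤ t) : 1 + t + t ^ 2 / 4 ≤ Real.exp t := by
  have h1 : 1 + t / 2 ≤ Real.exp (t / 2) := by
    have := Real.add_one_le_exp (t / 2)
    linarith
  have h2 : 0 ≤ 1 + t / 2 := by linarith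
  have h3 : Real.exp t = Real.exp (t / 2) * Real.exp (t / 2) := by
    rw [← Real.exp_add]
    congr 1
    ring
  rw [h3]
  nlinarith [mul_le_mul h1 h1 h2 (Real.exp_pos _).le]

lemma k7_low {m c : ℕ} {x ζ : Fin m → ℝ} (hx : ∑ i, x i = c) (hx0 : ∀ i, 0 ≤ x i)
    (hc0 : (0 : ℝ) < c) (hζ : ∀ p q, c * (ζ p - ζ q) ≤ 1) [Nonempty (Fin m)] (u : Fin m → ℕ)
    (hu : u ∈ Mn m c) : -1 ≤ ∑ k, ζ k * ((u k : ℝ) - x k) := by
  obtain ⟨q, hq⟩ := Finite.exists_min ζ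
  have hsum : ∑ k, ((u k : ℝ) - x k) = 0 := by
    rw [k7_mem] at hu
    rw [Finset.sum_sub_distrib, hx, ← hu]
    push_cast
    ring
  have h1 : ∑ k, ζ k * ((u k : ℝ) - x k) = ∑ k, (ζ k - ζ q) * ((u k : ℝ) - x k) := by
    simp_rw [sub_mul]
    rw [Finset.sum_sub_distrib, ← Finset.mul_sum, hsum]
    ring
  rw [h1]
  have h2 : ∀ k, -(1 / c * x k) ≤ (ζ k - ζ q) * ((u k : ℝ) - x k) := by
    intro k
    have h3 : 0 ≤ ζ k - ζ q := sub_nonneg.mpr (hq k)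
    have h4 : ζ k - ζ q ≤ 1 / c := by
      rw [le_div_iff₀ hc0]
      linarith [hζ k q, mul_comm (c : ℝ) (ζ k - ζ q)]
    have h5 : (ζ k - ζ q) * x k ≤ 1 / c * x k := mul_le_mul_of_nonneg_right h4 (hx0 k)
    have h6 : 0 ≤ (ζ k - ζ q) * (u k : ℝ) := mul_nonneg h3 (Nat.cast_nonneg _)
    rw [mul_sub]
    linarith
  calc (-1 : ℝ) = ∑ k, -(1 / c * x k) := by
        rw [Finset.sum_neg_distrib, ← Finset.mul_sum, hx]
        field_simp
    _ ≤ _ := Finset.sum_le_sum fun k _ => h2 k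

/-- K7 (variance). -/
theorem k7 : ∀ {m c : ℕ} {η x ζ : Fin m → ℝ} {κ T : ℝ} (i j : Fin m), 0 < κ → 0 ≤ T → 1 ≤ c →
    Mean m c η x → ∑ i, x i = c → (∀ i, 0 ≤ x i) → κ * c ≤ |x i - x j| →
    |c * (η i - η j)| ≤ T → (∀ p q, c * (ζ p - ζ q) ≤ 1) →
    (1 + Real.exp (-T) * κ ^ 2 / 16 * (c * (ζ i - ζ j)) ^ 2) * ZZ m c η ≤
      ZZ m c (η + ζ) * Real.exp (-∑ i, ζ i * x i) := by
  intro m c η x ζ κ T i j hκ hT hc hM hx hx0 hgap hηT hζ
  classical
  have : Nonempty (Fin m) := ⟨i⟩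
  have hc0 : (0 : ℝ) < c := by exact_mod_cast hc
  have hij : i ≠ j := by
    rintro rfl
    rw [sub_self, abs_zero] at hgap
    linarith [mul_pos hκ hc0]
  obtain ⟨w, hw⟩ : ∃ w : (Fin m → ℕ) → ℝ, w = fun u => Real.exp (∑ k, η k * (u k : ℝ)) := ⟨_, rfl⟩
  obtain ⟨X, hX⟩ : ∃ X : (Fin m → ℕ) → ℝ, X = fun u => ∑ k, ζ k * ((u k : ℝ) - x k) := ⟨_, rfl⟩
  have hw0 : ∀ u, 0 < w u := by intro u; rw [hw]; exact Real.exp_pos _
  have hZ : ZZ m c η = ∑ u ∈ Mn m c, w u := by rw [hw]; rfl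
  have hZ2 : ZZ m c (η + ζ) * Real.exp (-∑ i, ζ i * x i) =
      ∑ u ∈ Mn m c, w u * Real.exp (X u) := by
    unfold ZZ
    rw [Finset.sum_mul, hw, hX]
    apply Finset.sum_congr rfl
    intro u _
    rw [← Real.exp_add, ← Real.exp_add]
    congr 1
    simp_rw [Pi.add_apply, add_mul, mul_sub]
    rw [Finset.sum_add_distrib, Finset.sum_sub_distrib]
    ring
  have hmean : ∀ k, ∑ u ∈ Mn m c, (u k : ℝ) * w u = x k * ∑ u ∈ Mn m c, w u := by
    intro k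
    have h1 := hM k
    rw [← hZ, hw]
    exact h1
  have hEX : ∑ u ∈ Mn m c, w u * X u = 0 := by
    rw [hX]
    simp_rw [Finset.mul_sum]
    rw [Finset.sum_comm]
    apply Finset.sum_eq_zero
    intro k _
    have h1 : ∀ u : Fin m → ℕ, w u * (ζ k * ((u k : ℝ) - x k)) =
        ζ k * ((u k : ℝ) * w u - x k * w u) := fun u => by ring
    simp_rw [h1]
    rw [← Finset.mul_sum, Finset.sum_sub_distrib, hmean k, ← Finset.mul_sum]
    ring
  have hXs : ∀ u : Fin m → ℕ, X u - X (fun k => u (Equiv.swap i j k)) =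
      (ζ i - ζ j) * ((u i : ℝ) - u j) := by
    intro u
    rw [← k7_swap_sum hij ζ u, hX]
    simp_rw [mul_sub]
    rw [Finset.sum_sub_distrib, Finset.sum_sub_distrib]
    ring
  have hws : ∀ u ∈ Mn m c, Real.exp (-T) * w u ≤ w (fun k => u (Equiv.swap i j k)) := by
    intro u hu
    rw [hw]
    simp only
    rw [← Real.exp_add]
    apply Real.exp_le_exp.mpr
    have h1 := k7_swap_sum hij η u
    have h2 : (η i - η j) * ((u i : ℝ) - u j) ≤ T := by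
      have h3 : |(u i : ℝ) - u j| ≤ c := by
        rw [k7_mem] at hu
        have h4 : u i ≤ c := by
          rw [← hu]; exact Finset.single_le_sum (fun _ _ => Nat.zero_le _) (Finset.mem_univ i)
        have h5 : u j ≤ c := by
          rw [← hu]; exact Finset.single_le_sum (fun _ _ => Nat.zero_le _) (Finset.mem_univ j)
        have h4' : (u i : ℝ) ≤ c := by exact_mod_cast h4
        have h5' : (u j : ℝ) ≤ c := by exact_mod_cast h5
        have h6 : (0 : ℝ) ≤ u i := Nat.cast_nonneg _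
        have h7 : (0 : ℝ) ≤ u j := Nat.cast_nonneg _
        rw [abs_le]
        constructor <;> linarith
      calc (η i - η j) * ((u i : ℝ) - u j) ≤ |(η i - η j) * ((u i : ℝ) - u j)| := le_abs_self _
        _ = |η i - η j| * |(u i : ℝ) - u j| := abs_mul _ _
        _ ≤ |η i - η j| * c := mul_le_mul_of_nonneg_left h3 (abs_nonneg _)
        _ = |c * (η i - η j)| := by rw [abs_mul, abs_of_pos hc0, mul_comm]
        _ ≤ T := hηT
    linarith
  have hT1 : Real.exp (-T) ≤ 1 := Real.exp_le_one_iff.mpr (by linarith)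
  have hT0 : 0 < Real.exp (-T) := Real.exp_pos _
  -- second moment of `X`
  have hXX : Real.exp (-T) / 4 * ((ζ i - ζ j) ^ 2 * ∑ u ∈ Mn m c, w u * ((u i : ℝ) - u j) ^ 2) ≤
      ∑ u ∈ Mn m c, w u * X u ^ 2 := by
    have h1 : 2 * ∑ u ∈ Mn m c, w u * X u ^ 2 = ∑ u ∈ Mn m c, (w u * X u ^ 2 +
        w (fun k => u (Equiv.swap i j k)) * X (fun k => u (Equiv.swap i j k)) ^ 2) := by
      rw [Finset.sum_add_distrib, k7_swap i j (fun u => w u * X u ^ 2)]
      ring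
    have h2 : ∑ u ∈ Mn m c, Real.exp (-T) / 2 * ((ζ i - ζ j) ^ 2 * (w u *
        ((u i : ℝ) - u j) ^ 2)) ≤ ∑ u ∈ Mn m c, (w u * X u ^ 2 +
        w (fun k => u (Equiv.swap i j k)) * X (fun k => u (Equiv.swap i j k)) ^ 2) := by
      apply Finset.sum_le_sum
      intro u hu
      have h3 := hws u hu
      have h4 := hXs u
      obtain ⟨A, hA⟩ : ∃ A, A = X u := ⟨_, rfl⟩
      obtain ⟨B, hB⟩ : ∃ B, B = X (fun k => u (Equiv.swap i j k)) := ⟨_, rfl⟩
      obtain ⟨W, hW⟩ : ∃ W, W = w (fun k => u (Equiv.swap i j k)) := ⟨_, rfl⟩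
      rw [← hA, ← hB] at h4
      rw [← hW] at h3
      rw [← hA, ← hB, ← hW]
      have h5 : Real.exp (-T) * w u ≤ w u := by
        calc Real.exp (-T) * w u ≤ 1 * w u := mul_le_mul_of_nonneg_right hT1 (hw0 u).le
          _ = w u := one_mul _
      have h6 : Real.exp (-T) * w u * A ^ 2 ≤ w u * A ^ 2 :=
        mul_le_mul_of_nonneg_right h5 (sq_nonneg _)
      have h7 : Real.exp (-T) * w u * B ^ 2 ≤ W * B ^ 2 :=
        mul_le_mul_of_nonneg_right h3 (sq_nonneg _)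
      have h8 : (ζ i - ζ j) ^ 2 * ((u i : ℝ) - u j) ^ 2 ≤ 2 * A ^ 2 + 2 * B ^ 2 := by
        have h9 : (ζ i - ζ j) ^ 2 * ((u i : ℝ) - u j) ^ 2 = (A - B) ^ 2 := by
          rw [h4]; ring
        rw [h9]
        nlinarith [sq_nonneg (A + B)]
      have h10 : 0 < Real.exp (-T) * w u := mul_pos hT0 (hw0 u)
      calc Real.exp (-T) / 2 * ((ζ i - ζ j) ^ 2 * (w u * ((u i : ℝ) - u j) ^ 2))
          = Real.exp (-T) * w u * ((ζ i - ζ j) ^ 2 * ((u i : ℝ) - u j) ^ 2) / 2 := by ring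
        _ ≤ Real.exp (-T) * w u * (2 * A ^ 2 + 2 * B ^ 2) / 2 := by
            have := mul_le_mul_of_nonneg_left h8 h10.le
            linarith
        _ = Real.exp (-T) * w u * A ^ 2 + Real.exp (-T) * w u * B ^ 2 := by ring
        _ ≤ w u * A ^ 2 + W * B ^ 2 := add_le_add h6 h7
    rw [← Finset.mul_sum, ← Finset.mul_sum] at h2
    linarith
  -- variance of `u_i - u_j`
  have hvar : (x i - x j) ^ 2 * ZZ m c η ≤ ∑ u ∈ Mn m c, w u * ((u i : ℝ) - u j) ^ 2 := by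
    have h1 : ∑ u ∈ Mn m c, w u * ((u i : ℝ) - u j) = (x i - x j) * ZZ m c η := by
      have h2 : ∀ u : Fin m → ℕ, w u * ((u i : ℝ) - u j) = (u i : ℝ) * w u - (u j : ℝ) * w u :=
        fun u => by ring
      simp_rw [h2]
      rw [Finset.sum_sub_distrib, hmean i, hmean j, hZ]
      ring
    have h3 : 0 ≤ ∑ u ∈ Mn m c, w u * (((u i : ℝ) - u j) - (x i - x j)) ^ 2 :=
      Finset.sum_nonneg fun u _ => mul_nonneg (hw0 u).le (sq_nonneg _)
    have h4 : ∑ u ∈ Mn m c, w u * (((u i : ℝ) - u j) - (x i - x j)) ^ 2 =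
        ∑ u ∈ Mn m c, w u * ((u i : ℝ) - u j) ^ 2 -
        2 * (x i - x j) * ∑ u ∈ Mn m c, w u * ((u i : ℝ) - u j) +
        (x i - x j) ^ 2 * ∑ u ∈ Mn m c, w u := by
      rw [Finset.mul_sum, Finset.mul_sum, ← Finset.sum_sub_distrib, ← Finset.sum_add_distrib]
      apply Finset.sum_congr rfl
      intro u _
      ring
    rw [h4, h1, ← hZ] at h3
    nlinarith
  have hκc : κ ^ 2 * (c : ℝ) ^ 2 ≤ (x i - x j) ^ 2 := by
    have h1 : 0 ≤ κ * c := by positivity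
    calc κ ^ 2 * (c : ℝ) ^ 2 = (κ * c) * (κ * c) := by ring
      _ ≤ |x i - x j| * |x i - x j| := mul_le_mul hgap hgap h1 (abs_nonneg _)
      _ = (x i - x j) ^ 2 := by rw [← sq, sq_abs]
  have hZ0 : 0 ≤ ZZ m c η := by
    rw [hZ]; exact Finset.sum_nonneg fun u _ => (hw0 u).le
  -- conclusion
  have hfin : ZZ m c η + (∑ u ∈ Mn m c, w u * X u ^ 2) / 4 ≤ ∑ u ∈ Mn m c, w u * Real.exp (X u) := by
    have h1 : ∑ u ∈ Mn m c, (w u + w u * X u + w u * X u ^ 2 / 4) ≤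
        ∑ u ∈ Mn m c, w u * Real.exp (X u) := by
      apply Finset.sum_le_sum
      intro u hu
      have h2 : -1 ≤ X u := by rw [hX]; exact k7_low hx hx0 hc0 hζ u hu
      calc w u + w u * X u + w u * X u ^ 2 / 4 = w u * (1 + X u + X u ^ 2 / 4) := by ring
        _ ≤ w u * Real.exp (X u) := mul_le_mul_of_nonneg_left (k7_exp h2) (hw0 u).le
    rw [Finset.sum_add_distrib, Finset.sum_add_distrib, hEX, ← Finset.sum_div, ← hZ] at h1
    linarith
  rw [hZ2]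
  have h11 : Real.exp (-T) / 4 * ((ζ i - ζ j) ^ 2 * (κ ^ 2 * (c : ℝ) ^ 2 * ZZ m c η)) ≤
      ∑ u ∈ Mn m c, w u * X u ^ 2 := by
    refine le_trans ?_ hXX
    apply mul_le_mul_of_nonneg_left _ (by positivity)
    apply mul_le_mul_of_nonneg_left _ (sq_nonneg _)
    exact (mul_le_mul_of_nonneg_right hκc hZ0).trans hvar
  calc (1 + Real.exp (-T) * κ ^ 2 / 16 * (c * (ζ i - ζ j)) ^ 2) * ZZ m c η
      = ZZ m c η + (Real.exp (-T) / 4 * ((ζ i - ζ j) ^ 2 *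
        (κ ^ 2 * (c : ℝ) ^ 2 * ZZ m c η))) / 4 := by ring
    _ ≤ ZZ m c η + (∑ u ∈ Mn m c, w u * X u ^ 2) / 4 := by linarith
    _ ≤ _ := hfin

end Vale.Agent.P181.KT
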