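import Vale.Agent.P181.R2.H553.CDefs

/-!
ROW C1: `([123][124][134][234]) ^ n` is a symmetric invariant of four points.
-/

set_option autoImplicit false

open scoped TensorProduct
open MvPolynomial

namespace Vale.Agent.P181.H553.C1

open Vale.Agent.P181 Vale.Agent.P181.H280 Vale.Agent.P181.H179 Vale.Agent.P181.FR

/-- The weight of the point `l`. -/
def wt {r : ℕ} (l : Fin r) : Fin r × Fin 3 → ℕ := fun s => if s.1 = l then 1 else 0

theorem X_hom {r : ℕ} (l i : Fin r) (s : Fin 3) :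
    IsWeightedHomogeneous (wt l) (X (i, s) : MvPolynomial (Fin r × Fin 3) ℂ)
      (if i = l then 1 else 0) :=
  isWeightedHomogeneous_X ℂ (wt l) (i, s)

theorem br_hom {r : ℕ} (i j k l : Fin r) :
    IsWeightedHomogeneous (wt l) (br i j k)
      ((if i = l then 1 else 0) + (if j = l then 1 else 0) + (if k = l then 1 else 0)) := by
  have h3 : ∀ s t u : Fin 3, IsWeightedHomogeneous (wt l)
      (X (i, s) * X (j, t) * X (k, u) : MvPolynomial (Fin r × Fin 3) ℂ)
      ((if i = l then 1 else 0) + (if j = l then 1 else 0) + (if k = l then 1 else 0)) :=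
    fun s t u => ((X_hom l i s).mul (X_hom l j t)).mul (X_hom l k u)
  have h3' : ∀ s t u : Fin 3,
      (X (i, s) * X (j, t) * X (k, u) : MvPolynomial (Fin r × Fin 3) ℂ) ∈
      weightedHomogeneousSubmodule ℂ (wt l)
      ((if i = l then 1 else 0) + (if j = l then 1 else 0) + (if k = l then 1 else 0)) :=
    fun s t u => (mem_weightedHomogeneousSubmodule _ _ _ _).2 (h3 s t u)
  have e : br i j k = X (i, 0) * X (j, 1) * X (k, 2) - X (i, 0) * X (j, 2) * X (k, 1)
      - X (i, 1) * X (j, 0) * X (k, 2) + X (i, 1) * X (j, 2) * X (k, 0)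
      + X (i, 2) * X (j, 0) * X (k, 1) - X (i, 2) * X (j, 1) * X (k, 0) := by
    unfold br
    rw [Matrix.det_fin_three]
    simp only [Matrix.of_apply, Matrix.cons_val_zero, Matrix.cons_val_one, Matrix.cons_val]
  rw [e]
  refine (mem_weightedHomogeneousSubmodule _ _ _ _).1 ?_
  exact Submodule.sub_mem _ (Submodule.add_mem _ (Submodule.add_mem _ (Submodule.sub_mem _
    (Submodule.sub_mem _ (h3' 0 1 2) (h3' 0 2 1)) (h3' 1 0 2)) (h3' 1 2 0)) (h3' 2 0 1)) (h3' 2 1 0)

/-- The value of a bracket. -/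
theorem evp_br {r : ℕ} (i j k : Fin r) (p : Fin r → Pt) :
    evp (br i j k) p = Matrix.det (Matrix.of fun u s : Fin 3 => p (![i, j, k] u) s) := by
  unfold evp br
  rw [RingHom.map_det]
  congr 1
  ext u s
  simp [RingHom.mapMatrix_apply]

theorem det_borel (g : Matrix (Fin 3) (Fin 3) ℂ) (hg : IsBorel g) : g.det = ∏ i, g i i := by
  apply Matrix.det_of_isUpperTriangular
  intro i j hij
  exact hg.1 i j hij

/-- A bracket is multiplied by the product of the diagonal entries. -/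
theorem br_semi {r : ℕ} (i j k : Fin r) : Semi (fun _ => 1) (br i j k) := by
  intro g hg p
  have h1 := evp_br i j k (fun l => Matrix.vecMul (p l) g)
  have h2 := evp_br i j k p
  unfold evp at h1 h2
  rw [h1, h2]
  have e : (Matrix.of fun u s : Fin 3 => Matrix.vecMul (p (![i, j, k] u)) g s)
      = (Matrix.of fun u s : Fin 3 => p (![i, j, k] u) s) * g := by
    ext u s
    rfl
  rw [e, Matrix.det_mul, det_borel g hg]
  simp only [pow_one]
  ring

/-- The product of the four brackets. -/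
noncomputable def Q4 : MvPolynomial (Fin 4 × Fin 3) ℂ :=
  br 0 1 2 * br 0 1 3 * br 0 2 3 * br 1 2 3

theorem Q4_multi (n : ℕ) : Multi (3 * n) 4 (Q4 ^ n) := by
  intro l
  have h : IsWeightedHomogeneous (wt l) Q4 3 := by
    have := (((br_hom 0 1 2 l).mul (br_hom 0 1 3 l)).mul (br_hom 0 2 3 l)).mul (br_hom 1 2 3 l)
    have e : ((if (0 : Fin 4) = l then 1 else 0) + (if (1 : Fin 4) = l then 1 else 0)
        + (if (2 : Fin 4) = l then 1 else 0) + ((if (0 : Fin 4) = l then 1 else 0)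
        + (if (1 : Fin 4) = l then 1 else 0) + (if (3 : Fin 4) = l then 1 else 0))
        + ((if (0 : Fin 4) = l then 1 else 0)
        + (if (2 : Fin 4) = l then 1 else 0) + (if (3 : Fin 4) = l then 1 else 0))
        + ((if (1 : Fin 4) = l then 1 else 0)
        + (if (2 : Fin 4) = l then 1 else 0) + (if (3 : Fin 4) = l then 1 else 0))) = 3 := by
      fin_cases l <;> rfl
    rw [e] at this
    exact this
  have h2 := h.pow n
  rw [smul_eq_mul, mul_comm] at h2
  exact h2

theorem Q4_semi (n : ℕ) : Semi (fun _ => 4 * n) (Q4 ^ n) := by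
  intro g hg p
  have a := br_semi (0 : Fin 4) 1 2 g hg p
  have b := br_semi (0 : Fin 4) 1 3 g hg p
  have c := br_semi (0 : Fin 4) 2 3 g hg p
  have d := br_semi (1 : Fin 4) 2 3 g hg p
  simp only [pow_one] at a b c d
  unfold Q4
  rw [map_pow, map_mul, map_mul, map_mul, a, b, c, d, map_pow, map_mul, map_mul, map_mul,
    Finset.prod_pow, pow_mul, ← mul_pow]
  congr 1
  ring

/-- Integer determinant. -/
def d3 (u v w : Fin 3 → ℤ) : ℤ :=
  u 0 * v 1 * w 2 - u 0 * v 2 * w 1 - u 1 * v 0 * w 2 + u 1 * v 2 * w 0 + u 2 * v 0 * w 1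
    - u 2 * v 1 * w 0

/-- The frame over the integers. -/
def fz : Fin 4 → Fin 3 → ℤ := ![![1, 0, 0], ![0, 1, 0], ![0, 0, 1], ![1, 1, 1]]

theorem frame_fz (l : Fin 4) (s : Fin 3) : frame l s = ((fz l s : ℤ) : ℂ) := by
  fin_cases l <;> fin_cases s <;> simp [frame, fz]

theorem evp_br_frame (σ : Equiv.Perm (Fin 4)) (i j k : Fin 4) :
    evp (br i j k) (fun l => frame (σ l)) = ((d3 (fz (σ i)) (fz (σ j)) (fz (σ k)) : ℤ) : ℂ) := by
  rw [evp_br, Matrix.det_fin_three]
  simp only [Matrix.of_apply, Matrix.cons_val_zero, Matrix.cons_val_one, Matrix.cons_val,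
    frame_fz, d3]
  push_cast
  ring

theorem all_sign : ∀ σ : Equiv.Perm (Fin 4),
    d3 (fz (σ 0)) (fz (σ 1)) (fz (σ 2)) * d3 (fz (σ 0)) (fz (σ 1)) (fz (σ 3)) *
      d3 (fz (σ 0)) (fz (σ 2)) (fz (σ 3)) * d3 (fz (σ 1)) (fz (σ 2)) (fz (σ 3)) = -1 := by
  decide +kernel

theorem evp_Q4 (n : ℕ) (σ : Equiv.Perm (Fin 4)) :
    evp (Q4 ^ n) (fun l => frame (σ l)) = (-1) ^ n := by
  have h : evp Q4 (fun l => frame (σ l)) = -1 := by
    have e : evp Q4 (fun l => frame (σ l)) = evp (br 0 1 2) (fun l => frame (σ l)) *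
        evp (br 0 1 3) (fun l => frame (σ l)) * evp (br 0 2 3) (fun l => frame (σ l)) *
        evp (br 1 2 3) (fun l => frame (σ l)) := by
      unfold evp Q4
      rw [map_mul, map_mul, map_mul]
    rw [e, evp_br_frame, evp_br_frame, evp_br_frame, evp_br_frame]
    have := all_sign σ
    exact_mod_cast this
  have e2 : evp (Q4 ^ n) (fun l => frame (σ l)) = evp Q4 (fun l => frame (σ l)) ^ n := by
    unfold evp
    rw [map_pow]
  rw [e2, h]

end Vale.Agent.P181.H553.C1

namespace Vale.Agent.P181.H553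

open Vale.Agent.P181 Vale.Agent.P181.H280 Vale.Agent.P181.H179 Vale.Agent.P181.FR

/-- ROW C1, from ROW C0. -/
theorem pos_four_of
    (C0 : ∀ {r c : ℕ} {lam : Fin 3 → ℕ} (Q : MvPolynomial (Fin r × Fin 3) ℂ)
      (_ : Multi c r Q) (_ : Semi lam Q) (p : Fin r → Pt)
      (_ : ∑ σ : Equiv.Perm (Fin r), evp Q (fun l => p (σ l)) ≠ 0), Pos r c 3 lam)
    (n : ℕ) : Pos 4 (3 * n) 3 (fun _ => 4 * n) := by
  refine C0 (C1.Q4 ^ n) (C1.Q4_multi n) (C1.Q4_semi n) frame ?_
  rw [Finset.sum_congr rfl fun σ _ => C1.evp_Q4 n σ, Finset.sum_const, nsmul_eq_mul]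
  refine mul_ne_zero ?_ (pow_ne_zero _ (by norm_num))
  rw [Finset.card_univ]
  exact_mod_cast Fintype.card_ne_zero

end Vale.Agent.P181.H553
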