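import Vale.Agent.P181.R2.H415.W7D

/-!
ROW W7: the family.
-/

set_option autoImplicit false

namespace Vale.Agent.P181.FR.W7c

open Polynomial

/-- The fixed points. -/
noncomputable def PP (n m : ℕ) : Fin n → Fin m → ℂ := fun l k => ((l : ℕ) : ℂ) ^ (k : ℕ)

/-- The curve. -/
noncomputable def qq (La n m : ℕ) (t : ℂ) : Fin m → ℂ := fun k =>
  t ^ La * 0 ^ (k : ℕ) + t ^ (La - 1) * 1 ^ (k : ℕ) + ((n : ℕ) : ℂ) ^ (k : ℕ)

theorem ct_snoc {i m n La : ℕ} (him : i ≤ m) (t : ℂ) :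
    ct him (Fin.snoc (α := fun _ => Fin m → ℂ) (PP n m) (qq La n m t)) =
      fun l k => eval₂RingHom Complex.ofRealHom t (R La i n l k) := by
  funext l k
  refine Fin.lastCases ?_ (fun l' => ?_) l
  · rw [R, if_pos rfl, ct, Fin.snoc_last, qq, map_add, map_add, map_mul, map_mul]
    simp only [coe_eval₂RingHom, eval₂_C, eval₂_pow, eval₂_X, Fin.val_castLE]
    simp
  · have h : l'.castSucc ≠ Fin.last n := (Fin.castSucc_lt_last l').ne
    rw [R, if_neg h, ct, Fin.snoc_castSucc, PP]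
    simp only [coe_eval₂RingHom, eval₂_C, Fin.val_castLE, Fin.val_castSucc]
    simp

theorem GG_snoc {i m n La : ℕ} (him : i ≤ m) (t : ℂ) (al be ga : ℕ) :
    GG i (n + 1) al be ga (ct him (Fin.snoc (α := fun _ => Fin m → ℂ) (PP n m) (qq La n m t))) =
      ((GG i (n + 1) al be ga (R La i n)).map Complex.ofRealHom).eval t := by
  rw [ct_snoc, ← map_GG (eval₂RingHom Complex.ofRealHom t), coe_eval₂RingHom, eval_map]

end Vale.Agent.P181.FR.W7c

namespace Vale.Agent.P181.FR.W7c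

open Vale.Agent.P181 Vale.Agent.P181.H280 W7c

/-- ROW W7 -/
theorem family {m i : ℕ} (hi : 3 ≤ i) (him : i ≤ m) :
    ∃ (N : ℕ) (P : Fin (2 * i - 1) → Fin m → ℂ),
    ∀ c h : ℕ, N * (h + 1) ≤ c →
    ∃ G : Fin h → Fin h → ((Fin (2 * i - 1 + 1) → Fin m → ℂ) → ℂ),
      (∀ r k, G r k ∈ MP (2 * i - 1 + 1) m (2 * c)) ∧
      (∀ r k (σ : Equiv.Perm (Fin (2 * i - 1 + 1))) p, G r k (fun j => p (σ j)) = G r k p) ∧
      (∀ r k, HWF (2 * i - 1 + 1) m ((4 * c) • om m i) (G r k)) ∧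
      (∀ r k p (u v : Fin (2 * i - 1 + 1)), u ≠ v → p u = p v → G r k p = 0) ∧
      LinearIndependent ℂ (fun rk : Fin h × Fin h => fun q : Fin m → ℂ =>
        G rk.1 rk.2 (Fin.snoc (α := fun _ => Fin m → ℂ) P q)) := by
  have hB : 2 * i - 1 + 1 = i + i := by omega
  obtain ⟨N0, hN0⟩ : ∃ N0, Fintype.card (Sp i (2 * i - 1 + 1)) = N0 := ⟨_, rfl⟩
  refine ⟨2 * N0, PP (2 * i - 1) m, fun c h hc => ?_⟩
  have hsum : ∀ be ga : ℕ, be < h → ga < h →
      (c - (N0 - 1) * be - N0 * (1 + ga)) + (N0 - 1) * be + N0 * (1 + ga) = c := by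
    intro be ga hbe hga
    have h1 : (N0 - 1) * be ≤ N0 * h := Nat.mul_le_mul (by omega) hbe.le
    have h2 : N0 * (1 + ga) ≤ N0 * h := Nat.mul_le_mul le_rfl (by omega)
    have h3 : 2 * N0 * (h + 1) = N0 * h + N0 * h + 2 * N0 := by ring
    omega
  refine ⟨fun r k p => GG i (2 * i - 1 + 1) (c - (N0 - 1) * (r : ℕ) - N0 * (1 + (k : ℕ))) r k
    (ct him p), ?_, ?_, ?_, ?_, ?_⟩
  · intro r k
    exact GG_mem him N0 hN0 (hsum r k r.2 k.2)
  · intro r k σ p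
    exact GG_perm _ _ _ σ (ct him p)
  · intro r k
    exact GG_wt him N0 hN0 (hsum r k r.2 k.2)
  · intro r k p u v huv hp
    refine GG_diag hB (by omega) _ _ _ (ct him p) huv ?_
    funext l
    show p u _ = p v _
    rw [hp]
  · set La : ℕ := 2 * N0 * h + 2 with hLa
    have hLa2 : 2 ≤ La := by omega
    refine li_of_deg
      (fun rk : Fin h × Fin h => GG i (2 * i - 1 + 1)
        (c - (N0 - 1) * (rk.1 : ℕ) - N0 * (1 + (rk.2 : ℕ))) rk.1 rk.2 (R La i (2 * i - 1)))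
      _ (fun rk => PD_GG hLa2 hB hi _ _ _) ?_ _ (qq La (2 * i - 1) m) ?_
    · intro a b hab
      obtain ⟨hv1, hv2⟩ := count_val (fun σ : Sp i (2 * i - 1 + 1) => ds La σ) hLa2
        (fun σ => ds_val σ)
      rw [hN0] at hv2
      have hn1 : 1 ≤ (Finset.univ.filter fun σ : Sp i (2 * i - 1 + 1) => ds La σ = La - 1).card := by
        obtain ⟨σ, hσ⟩ := ex_one (La := La) hB hi
        exact Finset.card_pos.2 ⟨σ, by simp [hσ]⟩
      have := deg_inj hv2 hn1 hLa.ge hv1 a.1.2 a.2.2 b.1.2 b.2.2 (hsum _ _ a.1.2 a.2.2)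
        (hsum _ _ b.1.2 b.2.2) hab
      exact Prod.ext (Fin.ext this.1) (Fin.ext this.2)
    · intro a t
      exact GG_snoc him t _ _ _

end Vale.Agent.P181.FR.W7c
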