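import Vale.Agent.P181.R2.H302.FGen
import Vale.Agent.P181.R2.H959.WDefs
import Mathlib.LinearAlgebra.Vandermonde

/-!
ROW W7, part A: symmetric functions of the splittings of the points into two halves.
-/

set_option autoImplicit false

namespace Vale.Agent.P181.FR.W7c

open Vale.Agent.P181 Vale.Agent.P181.H280 Vale.Agent.P181.FR.Gen

/-- Splittings of the points into two halves. -/
abbrev Sp (i B : ℕ) : Type := (Fin i ⊕ Fin i) ≃ Fin B

section ring

variable {i B : ℕ} {S T : Type*} [CommRing S] [CommRing T]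

/-- The square of the product of two complementary minors. -/
def Y (σ : Sp i B) (x : Fin B → Fin i → S) : S :=
  (Matrix.det (Matrix.of fun j => x (σ (Sum.inl j))) *
    Matrix.det (Matrix.of fun j => x (σ (Sum.inr j)))) ^ 2

/-- Sum. -/
def F1 (i B : ℕ) (x : Fin B → Fin i → S) : S := ∑ σ : Sp i B, Y σ x

/-- Sum of the products of all but one. -/
def F2 (i B : ℕ) (x : Fin B → Fin i → S) : S :=
  ∑ σ : Sp i B, ∏ σ' ∈ Finset.univ.erase σ, Y σ' x

/-- Product. -/
def F3 (i B : ℕ) (x : Fin B → Fin i → S) : S := ∏ σ : Sp i B, Y σ x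

/-- The family. -/
def GG (i B al be ga : ℕ) (x : Fin B → Fin i → S) : S :=
  F1 i B x ^ al * F2 i B x ^ be * F3 i B x ^ (1 + ga)

theorem map_Y (f : S →+* T) (σ : Sp i B) (x : Fin B → Fin i → S) :
    f (Y σ x) = Y σ (fun l k => f (x l k)) := by
  unfold Y
  rw [map_pow, map_mul, RingHom.map_det, RingHom.map_det]
  rfl

theorem map_GG (f : S →+* T) (al be ga : ℕ) (x : Fin B → Fin i → S) :
    f (GG i B al be ga x) = GG i B al be ga (fun l k => f (x l k)) := by
  unfold GG F1 F2 F3
  simp only [map_mul, map_pow, map_sum, map_prod, map_Y]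

/-- Permuting the points. -/
def Ec (i : ℕ) {B : ℕ} (τ : Equiv.Perm (Fin B)) : Sp i B ≃ Sp i B where
  toFun σ := σ.trans τ
  invFun σ := σ.trans τ.symm
  left_inv σ := by ext; simp
  right_inv σ := by ext; simp

theorem Y_perm (σ : Sp i B) (τ : Equiv.Perm (Fin B)) (x : Fin B → Fin i → S) :
    Y σ (fun l => x (τ l)) = Y (Ec i τ σ) x := rfl

theorem GG_perm (al be ga : ℕ) (τ : Equiv.Perm (Fin B)) (x : Fin B → Fin i → S) :
    GG i B al be ga (fun l => x (τ l)) = GG i B al be ga x := by
  have h1 : F1 i B (fun l => x (τ l)) = F1 i B x := by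
    unfold F1
    simp only [Y_perm]
    exact Equiv.sum_comp (Ec i τ) fun σ => Y σ x
  have h3 : F3 i B (fun l => x (τ l)) = F3 i B x := by
    unfold F3
    simp only [Y_perm]
    exact Equiv.prod_comp (Ec i τ) fun σ => Y σ x
  have h2 : F2 i B (fun l => x (τ l)) = F2 i B x := by
    unfold F2
    simp only [Y_perm]
    rw [← Equiv.sum_comp (Ec i τ) fun σ => ∏ σ' ∈ Finset.univ.erase σ, Y σ' x]
    refine Finset.sum_congr rfl fun σ _ => ?_
    refine Finset.prod_bij (fun σ' _ => Ec i τ σ') ?_ ?_ ?_ ?_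
    · intro a ha
      rw [Finset.mem_erase] at ha ⊢
      exact ⟨fun h => ha.1 ((Ec i τ).injective h), Finset.mem_univ _⟩
    · intro a _ b _ h
      exact (Ec i τ).injective h
    · intro b hb
      rw [Finset.mem_erase] at hb
      refine ⟨(Ec i τ).symm b, ?_, by simp⟩
      rw [Finset.mem_erase]
      refine ⟨fun h => hb.1 ?_, Finset.mem_univ _⟩
      rw [← h, Equiv.apply_symm_apply]
    · intro a _
      rfl
  unfold GG
  rw [h1, h2, h3]

theorem Y_diag (σ : Sp i B) (x : Fin B → Fin i → S) {j k : Fin i} (hjk : j ≠ k)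
    (h : x (σ (Sum.inl j)) = x (σ (Sum.inl k))) : Y σ x = 0 := by
  unfold Y
  rw [Matrix.det_zero_of_row_eq hjk h, zero_mul, zero_pow two_ne_zero]

end ring

/-- Splittings with prescribed values. -/
theorem exists_sp {i B : ℕ} (hB : B = i + i) (s : Finset (Fin i ⊕ Fin i)) (f : Fin i ⊕ Fin i → Fin B)
    (hf : Set.InjOn f s) : ∃ σ : Sp i B, ∀ a ∈ s, σ a = f a := by
  classical
  obtain ⟨g, hg⟩ := Finset.exists_equiv_extend_of_card_eq
    (t := (Finset.univ : Finset (Fin B))) (by simp [hB]) (s := s) (f := f) (by simp) hf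
  exact ⟨g.trans (Equiv.subtypeUnivEquiv fun x => Finset.mem_univ x), fun a ha => hg a ha⟩

theorem GG_diag {i B : ℕ} {S : Type*} [CommRing S] (hB : B = i + i) (hi : 2 ≤ i)
    (al be ga : ℕ) (x : Fin B → Fin i → S)
    {u v : Fin B} (huv : u ≠ v) (h : x u = x v) : GG i B al be ga x = 0 := by
  classical
  have hj : (⟨0, by omega⟩ : Fin i) ≠ ⟨1, by omega⟩ := by
    intro e
    have := congrArg Fin.val e
    simp at this
  obtain ⟨σ, hσ⟩ := exists_sp (i := i) hB {Sum.inl ⟨0, by omega⟩, Sum.inl ⟨1, by omega⟩}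
    (fun a => if a = Sum.inl ⟨0, by omega⟩ then u else v) (by
      intro a ha b hb hab
      simp only [Finset.coe_insert, Finset.coe_singleton, Set.mem_insert_iff,
        Set.mem_singleton_iff] at ha hb
      rcases ha with rfl | rfl <;> rcases hb with rfl | rfl
      · rfl
      · simp only [if_true, Sum.inl.injEq] at hab
        rw [if_neg hj.symm] at hab
        exact absurd hab huv
      · simp only [if_true, Sum.inl.injEq] at hab
        rw [if_neg hj.symm] at hab
        exact absurd hab.symm huv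
      · rfl)
  have h0 := hσ (Sum.inl ⟨0, by omega⟩) (by simp)
  have h1 := hσ (Sum.inl ⟨1, by omega⟩) (by simp)
  rw [if_pos rfl] at h0
  rw [if_neg (fun e => hj (Sum.inl.inj e).symm)] at h1
  have hY : Y σ x = 0 := Y_diag σ x hj (by rw [h0, h1]; exact h)
  have h3 : F3 i B x = 0 := Finset.prod_eq_zero (Finset.mem_univ σ) hY
  unfold GG
  rw [h3, zero_pow (by omega), mul_zero]

end Vale.Agent.P181.FR.W7c
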