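import Vale.Agent.P181.R2.H415.W7A

/-!
ROW W7, part B: homogeneity and weights.
-/

set_option autoImplicit false

open MvPolynomial

namespace Vale.Agent.P181.FR.W7c

open Vale.Agent.P181 Vale.Agent.P181.H280 Vale.Agent.P181.FR.Gen

variable {m i B : ℕ}

/-- The first `i` coordinates. -/
def ct (him : i ≤ m) (p : Fin B → Fin m → ℂ) : Fin B → Fin i → ℂ := fun l k => p l (Fin.castLE him k)

theorem halves_mem (him : i ≤ m) (σ : Sp i B) :
    (fun p : Fin B → Fin m → ℂ => Matrix.det (Matrix.of fun j => ct him p (σ (Sum.inl j))) *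
      Matrix.det (Matrix.of fun j => ct him p (σ (Sum.inr j)))) ∈ MP B m 1 := by
  have h : (fun p : Fin B → Fin m → ℂ =>
      Matrix.det (Matrix.of fun j => ct him p (σ (Sum.inl j))) *
      Matrix.det (Matrix.of fun j => ct him p (σ (Sum.inr j)))) =
      ∑ π : Equiv.Perm (Fin i), ∑ ρ : Equiv.Perm (Fin i),
        (((Equiv.Perm.sign π : ℤ) : ℂ) * ((Equiv.Perm.sign ρ : ℤ) : ℂ)) •
        (fun p : Fin B → Fin m → ℂ => ∏ l : Fin B,
          p l (Sum.elim (fun j => Fin.castLE him (π j)) (fun j => Fin.castLE him (ρ j))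
            (σ.symm l))) := by
    funext p
    rw [← Matrix.det_transpose, Matrix.det_apply', ← Matrix.det_transpose, Matrix.det_apply',
      Finset.sum_mul_sum, Finset.sum_apply]
    refine Finset.sum_congr rfl fun π _ => ?_
    rw [Finset.sum_apply]
    refine Finset.sum_congr rfl fun ρ _ => ?_
    rw [Pi.smul_apply, smul_eq_mul, ← Equiv.prod_comp σ]
    simp only [Equiv.symm_apply_apply]
    rw [Fintype.prod_sum_type]
    simp only [Sum.elim_inl, Sum.elim_inr, Matrix.transpose_apply, Matrix.of_apply, ct]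
    ring
  rw [h]
  exact Submodule.sum_mem _ fun π _ => Submodule.sum_mem _ fun ρ _ =>
    Submodule.smul_mem _ _ (MP_coord _)

theorem Y_mem (him : i ≤ m) (σ : Sp i B) :
    (fun p : Fin B → Fin m → ℂ => Y σ (ct him p)) ∈ MP B m 2 := by
  have := MP_pow (halves_mem him σ) 2
  exact MP_cast (by norm_num) this

theorem MP_prod {ι : Type*} (s : Finset ι) {a : ℕ} (f : ι → (Fin B → Fin m → ℂ) → ℂ)
    (hf : ∀ j ∈ s, f j ∈ MP B m a) : ∏ j ∈ s, f j ∈ MP B m (s.card * a) := by
  classical
  induction s using Finset.induction_on with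
  | empty => simpa using MP_one
  | insert j s hj ih =>
    rw [Finset.prod_insert hj, Finset.card_insert_of_notMem hj]
    refine MP_cast ?_ (MP_mul (hf j (Finset.mem_insert_self j s))
      (ih fun k hk => hf k (Finset.mem_insert_of_mem hk)))
    ring

theorem GG_mem (him : i ≤ m) {al be ga c : ℕ} (N0 : ℕ) (hN : Fintype.card (Sp i B) = N0)
    (hc : al + (N0 - 1) * be + N0 * (1 + ga) = c) :
    (fun p : Fin B → Fin m → ℂ => GG i B al be ga (ct him p)) ∈ MP B m (2 * c) := by
  have h1 : (fun p : Fin B → Fin m → ℂ => F1 i B (ct him p)) ∈ MP B m 2 := by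
    have e : (fun p : Fin B → Fin m → ℂ => F1 i B (ct him p)) =
        ∑ σ : Sp i B, fun p : Fin B → Fin m → ℂ => Y σ (ct him p) := by
      funext p
      rw [Finset.sum_apply]
      rfl
    rw [e]
    exact Submodule.sum_mem _ fun σ _ => Y_mem him σ
  have h3 : (fun p : Fin B → Fin m → ℂ => F3 i B (ct him p)) ∈ MP B m (N0 * 2) := by
    have e : (fun p : Fin B → Fin m → ℂ => F3 i B (ct him p)) =
        ∏ σ : Sp i B, fun p : Fin B → Fin m → ℂ => Y σ (ct him p) := by
      funext p
      rw [Finset.prod_apply]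
      rfl
    rw [e, ← hN, ← Finset.card_univ]
    exact MP_prod _ _ fun σ _ => Y_mem him σ
  have h2 : (fun p : Fin B → Fin m → ℂ => F2 i B (ct him p)) ∈ MP B m ((N0 - 1) * 2) := by
    have e : (fun p : Fin B → Fin m → ℂ => F2 i B (ct him p)) =
        ∑ σ : Sp i B, ∏ σ' ∈ Finset.univ.erase σ,
          fun p : Fin B → Fin m → ℂ => Y σ' (ct him p) := by
      funext p
      rw [Finset.sum_apply]
      simp only [Finset.prod_apply]
      rfl
    rw [e]
    refine Submodule.sum_mem _ fun σ _ => ?_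
    have := MP_prod (Finset.univ.erase σ) (fun σ' : Sp i B =>
      fun p : Fin B → Fin m → ℂ => Y σ' (ct him p)) fun σ' _ => Y_mem him σ'
    rw [Finset.card_erase_of_mem (Finset.mem_univ σ), Finset.card_univ, hN] at this
    exact this
  have h := MP_mul (MP_mul (MP_pow h1 al) (MP_pow h2 be)) (MP_pow h3 (1 + ga))
  refine MP_cast ?_ h
  rw [← hc]
  ring

theorem Y_wt (him : i ≤ m) (σ : Sp i B) {g : Matrix (Fin m) (Fin m) ℂ} (hg : IsBorel g)
    (p : Fin B → Fin m → ℂ) : Y σ (ct him fun j => Matrix.vecMul (p j) g) =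
      (∏ k, g k k ^ om m i k) ^ 4 * Y σ (ct him p) := by
  have h1 := dD_wt him hg fun j => p (σ (Sum.inl j))
  have h2 := dD_wt him hg fun j => p (σ (Sum.inr j))
  have e1 : Matrix.det (Matrix.of fun j => ct him (fun j => Matrix.vecMul (p j) g) (σ (Sum.inl j)))
      = (∏ k, g k k ^ om m i k) * Matrix.det (Matrix.of fun j => ct him p (σ (Sum.inl j))) := h1
  have e2 : Matrix.det (Matrix.of fun j => ct him (fun j => Matrix.vecMul (p j) g) (σ (Sum.inr j)))
      = (∏ k, g k k ^ om m i k) * Matrix.det (Matrix.of fun j => ct him p (σ (Sum.inr j))) := h2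
  unfold Y
  rw [e1, e2]
  ring

theorem GG_wt (him : i ≤ m) {al be ga c : ℕ} (N0 : ℕ) (hN : Fintype.card (Sp i B) = N0)
    (hc : al + (N0 - 1) * be + N0 * (1 + ga) = c) :
    HWF B m ((4 * c) • om m i) (fun p => GG i B al be ga (ct him p)) := by
  intro g hg p
  rw [wt_smul]
  set w := ∏ k, g k k ^ om m i k with hw
  have h1 : F1 i B (ct him fun j => Matrix.vecMul (p j) g) = w ^ 4 * F1 i B (ct him p) := by
    unfold F1
    rw [Finset.mul_sum]
    exact Finset.sum_congr rfl fun σ _ => Y_wt him σ hg p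
  have h3 : F3 i B (ct him fun j => Matrix.vecMul (p j) g) = (w ^ 4) ^ N0 * F3 i B (ct him p) := by
    unfold F3
    rw [Finset.prod_congr rfl fun σ _ => Y_wt him σ hg p, Finset.prod_mul_distrib,
      Finset.prod_const, Finset.card_univ, hN]
  have h2 : F2 i B (ct him fun j => Matrix.vecMul (p j) g) =
      (w ^ 4) ^ (N0 - 1) * F2 i B (ct him p) := by
    unfold F2
    rw [Finset.mul_sum]
    refine Finset.sum_congr rfl fun σ _ => ?_
    rw [Finset.prod_congr rfl fun σ _ => Y_wt him σ hg p, Finset.prod_mul_distrib,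
      Finset.prod_const, Finset.card_erase_of_mem (Finset.mem_univ σ), Finset.card_univ, hN]
  show GG i B al be ga _ = _ * GG i B al be ga _
  unfold GG
  rw [h1, h2, h3, ← hc]
  simp only [mul_pow, ← pow_mul]
  have e : w ^ (4 * (al + (N0 - 1) * be + N0 * (1 + ga))) =
      w ^ (4 * al) * w ^ (4 * (N0 - 1) * be) * w ^ (4 * N0 * (1 + ga)) := by
    rw [← pow_add, ← pow_add]
    congr 1
    ring
  rw [e]
  ring

end Vale.Agent.P181.FR.W7c
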