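import Vale.Agent.P181.R2.H415.W7A

/-!
ROW W7, part C: degrees on a curve through points of the moment curve.
-/

set_option autoImplicit false

open Polynomial

namespace Vale.Agent.P181.FR.W7c

/-- Degree at most `d` and positive coefficient `d`. -/
def PD (f : ℝ[X]) (d : ℕ) : Prop := f.natDegree ≤ d ∧ 0 < f.coeff d

/-- Degree at most `d` and nonzero coefficient `d`. -/
def QD (f : ℝ[X]) (d : ℕ) : Prop := f.natDegree ≤ d ∧ f.coeff d ≠ 0

theorem PD.mul {f g : ℝ[X]} {d e : ℕ} (hf : PD f d) (hg : PD g e) : PD (f * g) (d + e) := by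
  refine ⟨natDegree_mul_le.trans (add_le_add hf.1 hg.1), ?_⟩
  rw [coeff_mul_add_eq_of_natDegree_le hf.1 hg.1]
  exact mul_pos hf.2 hg.2

theorem QD.mul {f g : ℝ[X]} {d e : ℕ} (hf : QD f d) (hg : QD g e) : QD (f * g) (d + e) := by
  refine ⟨natDegree_mul_le.trans (add_le_add hf.1 hg.1), ?_⟩
  rw [coeff_mul_add_eq_of_natDegree_le hf.1 hg.1]
  exact mul_ne_zero hf.2 hg.2

theorem QD.sq {f : ℝ[X]} {d : ℕ} (hf : QD f d) : PD (f ^ 2) (2 * d) := by
  rw [pow_two, two_mul]
  refine ⟨natDegree_mul_le.trans (add_le_add hf.1 hf.1), ?_⟩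
  rw [coeff_mul_add_eq_of_natDegree_le hf.1 hf.1]
  exact mul_self_pos.2 hf.2

theorem PD.one : PD (1 : ℝ[X]) 0 := ⟨by simp, by simp⟩

theorem PD.pow {f : ℝ[X]} {d : ℕ} (hf : PD f d) (n : ℕ) : PD (f ^ n) (n * d) := by
  induction n with
  | zero => simpa using PD.one
  | succ n ih =>
    rw [pow_succ, Nat.succ_mul]
    exact ih.mul hf

theorem PD.prod {ι : Type*} (s : Finset ι) {f : ι → ℝ[X]} {d : ι → ℕ}
    (h : ∀ j ∈ s, PD (f j) (d j)) : PD (∏ j ∈ s, f j) (∑ j ∈ s, d j) := by
  classical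
  induction s using Finset.induction_on with
  | empty => simpa using PD.one
  | insert j s hj ih =>
    rw [Finset.prod_insert hj, Finset.sum_insert hj]
    exact (h j (Finset.mem_insert_self j s)).mul
      (ih fun k hk => h k (Finset.mem_insert_of_mem hk))

theorem PD.sum {ι : Type*} (s : Finset ι) {f : ι → ℝ[X]} {d : ι → ℕ} {D : ℕ}
    (h : ∀ j ∈ s, PD (f j) (d j)) (hd : ∀ j ∈ s, d j ≤ D) (hex : ∃ j ∈ s, d j = D) :
    PD (∑ j ∈ s, f j) D := by
  refine ⟨natDegree_sum_le_of_forall_le _ _ fun j hj => (h j hj).1.trans (hd j hj), ?_⟩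
  rw [finsetSum_coeff]
  obtain ⟨j, hj, hjD⟩ := hex
  refine Finset.sum_pos' (fun k hk => ?_) ⟨j, hj, ?_⟩
  · rcases (hd k hk).lt_or_eq with hlt | heq
    · rw [coeff_eq_zero_of_natDegree_lt (lt_of_le_of_lt (h k hk).1 hlt)]
    · rw [← heq]
      exact (h k hk).2.le
  · rw [← hjD]
    exact (h j hj).2

theorem PD.natDegree {f : ℝ[X]} {d : ℕ} (h : PD f d) : f.natDegree = d :=
  le_antisymm h.1 (le_natDegree_of_ne_zero h.2.ne')

/-- The points: `v(0), ..., v(n-1)` on the moment curve and
`X^La v(0) + X^(La-1) v(1) + v(n)`. -/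
noncomputable def R (La i n : ℕ) (l : Fin (n + 1)) (k : Fin i) : ℝ[X] :=
  if l = Fin.last n then X ^ La * C ((0 : ℝ) ^ (k : ℕ)) + X ^ (La - 1) * C ((1 : ℝ) ^ (k : ℕ)) +
    C (((n : ℕ) : ℝ) ^ (k : ℕ)) else C (((l : ℕ) : ℝ) ^ (k : ℕ))

open Classical in
/-- The degree of the bracket. -/
noncomputable def dle (La : ℕ) {i n : ℕ} (e : Fin i → Fin (n + 1)) : ℕ :=
  if ∃ j, e j = Fin.last n then
    (if ∃ j, (e j : ℕ) = 0 then (if ∃ j, (e j : ℕ) = 1 then 0 else La - 1) else La) else 0

theorem inj_update {i : ℕ} {x : Fin i → ℝ} (hx : Function.Injective x) (j0 : Fin i) (y : ℝ)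
    (h : ∀ j, j ≠ j0 → x j ≠ y) : Function.Injective (Function.update x j0 y) := by
  intro a b hab
  by_cases ha : a = j0
  · by_cases hb : b = j0
    · rw [ha, hb]
    · rw [ha, Function.update_self, Function.update_of_ne hb] at hab
      exact absurd hab.symm (h b hb)
  · by_cases hb : b = j0
    · rw [hb, Function.update_self, Function.update_of_ne ha] at hab
      exact absurd hab (h a ha)
    · rw [Function.update_of_ne ha, Function.update_of_ne hb] at hab
      exact hx hab

theorem vdm_upd {i : ℕ} (x : Fin i → ℝ) (j0 : Fin i) (y : ℝ) :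
    Matrix.updateRow ((Matrix.vandermonde x).map (C : ℝ →+* ℝ[X])) j0
      (fun k : Fin i => C (y ^ (k : ℕ))) =
      (Matrix.vandermonde (Function.update x j0 y)).map (C : ℝ →+* ℝ[X]) := by
  ext1 a b
  by_cases ha : a = j0
  · subst ha
    rw [Matrix.updateRow_self, Matrix.map_apply, Matrix.vandermonde_apply, Function.update_self]
  · rw [Matrix.updateRow_ne ha, Matrix.map_apply, Matrix.map_apply, Matrix.vandermonde_apply,
      Matrix.vandermonde_apply, Function.update_of_ne ha]

theorem bracket_last {La i n : ℕ} (e : Fin i → Fin (n + 1)) (he : Function.Injective e)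
    (j0 : Fin i) (h0 : e j0 = Fin.last n) :
    Matrix.det (Matrix.of fun j => R La i n (e j)) =
      X ^ La * C (Matrix.vandermonde (Function.update (fun j => (((e j : Fin (n + 1)) : ℕ) : ℝ)) j0 0)).det +
      X ^ (La - 1) * C (Matrix.vandermonde (Function.update (fun j => (((e j : Fin (n + 1)) : ℕ) : ℝ)) j0 1)).det +
      C (Matrix.vandermonde (Function.update (fun j => (((e j : Fin (n + 1)) : ℕ) : ℝ)) j0 (n : ℝ))).det := by
  set x : Fin i → ℝ := fun j => (((e j : Fin (n + 1)) : ℕ) : ℝ) with hx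
  have e1 : (Matrix.of fun j => R La i n (e j)) =
      Matrix.updateRow ((Matrix.vandermonde x).map (C : ℝ →+* ℝ[X])) j0
        (((X : ℝ[X]) ^ La) • (fun k : Fin i => C ((0 : ℝ) ^ (k : ℕ))) +
          ((X : ℝ[X]) ^ (La - 1)) • (fun k : Fin i => C ((1 : ℝ) ^ (k : ℕ))) +
          (fun k : Fin i => C ((n : ℝ) ^ (k : ℕ)))) := by
    ext1 a b
    by_cases ha : a = j0
    · subst ha
      rw [Matrix.updateRow_self, Matrix.of_apply, R, if_pos h0]
      rfl
    · have : e a ≠ Fin.last n := fun h => ha (he (h.trans h0.symm))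
      rw [Matrix.updateRow_ne ha, Matrix.of_apply, R, if_neg this, Matrix.map_apply,
        Matrix.vandermonde_apply]
  rw [e1, Matrix.det_updateRow_add, Matrix.det_updateRow_add, Matrix.det_updateRow_smul,
    Matrix.det_updateRow_smul, vdm_upd, vdm_upd, vdm_upd]
  simp only [← RingHom.mapMatrix_apply, ← RingHom.map_det]

theorem bracket_const {La i n : ℕ} (e : Fin i → Fin (n + 1)) (h : ∀ j, e j ≠ Fin.last n) :
    Matrix.det (Matrix.of fun j => R La i n (e j)) =
      C (Matrix.vandermonde (fun j => (((e j : Fin (n + 1)) : ℕ) : ℝ))).det := by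
  have e1 : (Matrix.of fun j => R La i n (e j)) =
      (Matrix.vandermonde (fun j => (((e j : Fin (n + 1)) : ℕ) : ℝ))).map (C : ℝ →+* ℝ[X]) := by
    ext1 a b
    rw [Matrix.of_apply, R, if_neg (h a), Matrix.map_apply, Matrix.vandermonde_apply]
  rw [e1, ← RingHom.mapMatrix_apply, ← RingHom.map_det]

theorem QD_bracket {La i n : ℕ} (hLa : 2 ≤ La) (hn : 2 ≤ n) (e : Fin i → Fin (n + 1))
    (he : Function.Injective e) :
    QD (Matrix.det (Matrix.of fun j => R La i n (e j))) (dle La e) := by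
  classical
  have hxi : Function.Injective (fun j => (((e j : Fin (n + 1)) : ℕ) : ℝ)) := by
    intro a b hab
    exact he (Fin.ext (Nat.cast_injective hab))
  by_cases h : ∃ j, e j = Fin.last n
  · obtain ⟨j0, hj0⟩ := h
    have hlast : ((e j0 : Fin (n + 1)) : ℕ) = n := by rw [hj0, Fin.val_last]
    have hn' : (Function.update (fun j => (((e j : Fin (n + 1)) : ℕ) : ℝ)) j0 (n : ℝ)) =
        fun j => (((e j : Fin (n + 1)) : ℕ) : ℝ) := by
      conv_rhs => rw [← Function.update_eq_self j0 (fun j => (((e j : Fin (n + 1)) : ℕ) : ℝ))]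
      rw [hlast]
    rw [bracket_last e he j0 hj0, hn']
    set V0 := (Matrix.vandermonde (Function.update (fun j => (((e j : Fin (n + 1)) : ℕ) : ℝ)) j0 0)).det with hV0
    set V1 := (Matrix.vandermonde (Function.update (fun j => (((e j : Fin (n + 1)) : ℕ) : ℝ)) j0 1)).det with hV1
    set V2 := (Matrix.vandermonde (fun j => (((e j : Fin (n + 1)) : ℕ) : ℝ))).det with hV2
    have h2 : V2 ≠ 0 := Matrix.det_vandermonde_ne_zero_iff.2 hxi
    have hc0 : (X ^ La * C V0 + X ^ (La - 1) * C V1 + C V2).coeff La = V0 := by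
      simp only [coeff_add, coeff_C, coeff_mul_C, coeff_X_pow]
      rw [if_neg (by omega : La ≠ 0)]
      simp
      omega
    have hc1 : V0 = 0 → (X ^ La * C V0 + X ^ (La - 1) * C V1 + C V2).coeff (La - 1) = V1 := by
      intro h
      rw [h]
      simp only [map_zero, mul_zero, zero_add, coeff_add, coeff_C, coeff_mul_C, coeff_X_pow]
      rw [if_neg (by omega : La - 1 ≠ 0)]
      simp
    have hd0 : (X ^ La * C V0 + X ^ (La - 1) * C V1 + C V2).natDegree ≤ La := by
      refine (natDegree_add_le _ _).trans (max_le ((natDegree_add_le _ _).trans (max_le ?_ ?_)) ?_)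
      · exact (natDegree_mul_C_le _ _).trans (natDegree_X_pow_le _)
      · exact ((natDegree_mul_C_le _ _).trans (natDegree_X_pow_le _)).trans (by omega)
      · rw [natDegree_C]
        omega
    have hd1 : V0 = 0 → (X ^ La * C V0 + X ^ (La - 1) * C V1 + C V2).natDegree ≤ La - 1 := by
      intro h
      rw [h]
      simp only [map_zero, mul_zero, zero_add]
      refine (natDegree_add_le _ _).trans (max_le ?_ ?_)
      · exact (natDegree_mul_C_le _ _).trans (natDegree_X_pow_le _)
      · rw [natDegree_C]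
        omega
    unfold dle
    rw [if_pos ⟨j0, hj0⟩]
    by_cases h0 : ∃ j, (e j : ℕ) = 0
    · rw [if_pos h0]
      obtain ⟨j, hj⟩ := h0
      have hjj : j0 ≠ j := by
        intro hh
        rw [← hh] at hj
        omega
      have hV00 : V0 = 0 := by
        rw [hV0, Matrix.det_vandermonde_eq_zero_iff]
        refine ⟨j0, j, ?_, hjj⟩
        rw [Function.update_self, Function.update_of_ne hjj.symm, hj, Nat.cast_zero]
      by_cases h1 : ∃ j, (e j : ℕ) = 1
      · rw [if_pos h1]
        obtain ⟨j', hj'⟩ := h1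
        have hjj' : j0 ≠ j' := by
          intro hh
          rw [← hh] at hj'
          omega
        have hV10 : V1 = 0 := by
          rw [hV1, Matrix.det_vandermonde_eq_zero_iff]
          refine ⟨j0, j', ?_, hjj'⟩
          rw [Function.update_self, Function.update_of_ne hjj'.symm, hj', Nat.cast_one]
        rw [hV00, hV10]
        simp only [map_zero, mul_zero, zero_add]
        refine ⟨by simp, ?_⟩
        rw [coeff_C_zero]
        exact h2
      · rw [if_neg h1]
        refine ⟨hd1 hV00, ?_⟩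
        rw [hc1 hV00, hV1]
        refine Matrix.det_vandermonde_ne_zero_iff.2 (inj_update hxi j0 1 fun j hj hh => h1 ⟨j, ?_⟩)
        exact_mod_cast hh
    · rw [if_neg h0]
      refine ⟨hd0, ?_⟩
      rw [hc0, hV0]
      refine Matrix.det_vandermonde_ne_zero_iff.2 (inj_update hxi j0 0 fun j hj hh => h0 ⟨j, ?_⟩)
      exact_mod_cast hh
  · unfold dle
    rw [if_neg h]
    have h' : ∀ j, e j ≠ Fin.last n := fun j hj => h ⟨j, hj⟩
    rw [bracket_const e h']
    refine ⟨by simp, ?_⟩
    rw [coeff_C_zero]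
    exact Matrix.det_vandermonde_ne_zero_iff.2 hxi

end Vale.Agent.P181.FR.W7c
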