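import Vale.Agent.P181.R2.H415.W7B
import Vale.Agent.P181.R2.H415.W7C

/-!
ROW W7, part D: the family.
-/

set_option autoImplicit false

namespace Vale.Agent.P181.FR.W7c

open Polynomial

theorem dle_zero {La i n : ℕ} (e : Fin i → Fin (n + 1)) (h : ∀ j, e j ≠ Fin.last n) :
    dle La e = 0 := by
  unfold dle
  rw [if_neg]
  rintro ⟨j, hj⟩
  exact h j hj

theorem dle_val {La i n : ℕ} (e : Fin i → Fin (n + 1)) :
    dle La e = 0 ∨ dle La e = La - 1 ∨ dle La e = La := by
  unfold dle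
  split_ifs <;> simp

/-- Half the degree of `Y σ` on the curve. -/
noncomputable def ds (La : ℕ) {i n : ℕ} (σ : Sp i (n + 1)) : ℕ :=
  dle La (fun j => σ (Sum.inl j)) + dle La (fun j => σ (Sum.inr j))

theorem ds_left {La i n : ℕ} (σ : Sp i (n + 1)) {j : Fin i} (h : σ (Sum.inl j) = Fin.last n) :
    ds La σ = dle La (fun j => σ (Sum.inl j)) := by
  unfold ds
  rw [dle_zero (fun j => σ (Sum.inr j)), add_zero]
  intro k hk
  have := σ.injective (hk.trans h.symm)
  simp at this

theorem ds_right {La i n : ℕ} (σ : Sp i (n + 1)) {j : Fin i} (h : σ (Sum.inr j) = Fin.last n) :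
    ds La σ = dle La (fun j => σ (Sum.inr j)) := by
  unfold ds
  rw [dle_zero (fun j => σ (Sum.inl j)), zero_add]
  intro k hk
  have := σ.injective (hk.trans h.symm)
  simp at this

theorem ds_val {La i n : ℕ} (σ : Sp i (n + 1)) :
    ds La σ = 0 ∨ ds La σ = La - 1 ∨ ds La σ = La := by
  obtain ⟨a, ha⟩ := σ.surjective (Fin.last n)
  rcases a with j | j
  · rw [ds_left σ ha]
    exact dle_val _
  · rw [ds_right σ ha]
    exact dle_val _

theorem PD_Y {La i n : ℕ} (hLa : 2 ≤ La) (hn : 2 ≤ n) (σ : Sp i (n + 1)) :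
    PD (Y σ (R La i n)) (2 * ds La σ) := by
  unfold Y ds
  refine QD.sq (QD.mul ?_ ?_)
  · exact QD_bracket hLa hn (fun j => σ (Sum.inl j)) fun a b h =>
      Sum.inl.inj (σ.injective h)
  · exact QD_bracket hLa hn (fun j => σ (Sum.inr j)) fun a b h =>
      Sum.inr.inj (σ.injective h)

/-- type 2 -/
theorem ex_two {La i n : ℕ} (hB : n + 1 = i + i) (hi : 3 ≤ i) :
    ∃ σ : Sp i (n + 1), ds La σ = 0 := by
  classical
  obtain ⟨σ, hσ⟩ := exists_sp (i := i) hB
    {Sum.inl ⟨0, by omega⟩, Sum.inl ⟨1, by omega⟩, Sum.inl ⟨2, by omega⟩}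
    (fun a => if a = Sum.inl ⟨0, by omega⟩ then Fin.last n else
      if a = Sum.inl ⟨1, by omega⟩ then ⟨0, by omega⟩ else ⟨1, by omega⟩) (by
      intro a ha b hb hab
      simp only [Finset.coe_insert, Finset.coe_singleton, Set.mem_insert_iff,
        Set.mem_singleton_iff] at ha hb
      rcases ha with rfl | rfl | rfl <;> rcases hb with rfl | rfl | rfl <;>
        first
        | rfl
        | (exfalso
           simp [Fin.ext_iff] at hab
           try omega))
  have h0 := hσ (Sum.inl ⟨0, by omega⟩) (by simp)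
  have h1 := hσ (Sum.inl ⟨1, by omega⟩) (by simp)
  have h2 := hσ (Sum.inl ⟨2, by omega⟩) (by simp)
  rw [if_pos rfl] at h0
  rw [if_neg (by simp [Fin.ext_iff]), if_pos rfl] at h1
  rw [if_neg (by simp [Fin.ext_iff]), if_neg (by simp [Fin.ext_iff])] at h2
  refine ⟨σ, ?_⟩
  rw [ds_left σ h0]
  unfold dle
  rw [if_pos ⟨_, h0⟩, if_pos ⟨_, congrArg Fin.val h1⟩, if_pos ⟨_, congrArg Fin.val h2⟩]

/-- type 1 -/
theorem ex_one {La i n : ℕ} (hB : n + 1 = i + i) (hi : 3 ≤ i) :
    ∃ σ : Sp i (n + 1), ds La σ = La - 1 := by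
  classical
  obtain ⟨σ, hσ⟩ := exists_sp (i := i) hB
    {Sum.inl ⟨0, by omega⟩, Sum.inl ⟨1, by omega⟩, Sum.inr ⟨0, by omega⟩}
    (fun a => if a = Sum.inl ⟨0, by omega⟩ then Fin.last n else
      if a = Sum.inl ⟨1, by omega⟩ then ⟨0, by omega⟩ else ⟨1, by omega⟩) (by
      intro a ha b hb hab
      simp only [Finset.coe_insert, Finset.coe_singleton, Set.mem_insert_iff,
        Set.mem_singleton_iff] at ha hb
      rcases ha with rfl | rfl | rfl <;> rcases hb with rfl | rfl | rfl <;>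
        first
        | rfl
        | (exfalso
           simp [Fin.ext_iff] at hab
           try omega))
  have h0 := hσ (Sum.inl ⟨0, by omega⟩) (by simp)
  have h1 := hσ (Sum.inl ⟨1, by omega⟩) (by simp)
  have h2 := hσ (Sum.inr ⟨0, by omega⟩) (by simp)
  rw [if_pos rfl] at h0
  rw [if_neg (by simp [Fin.ext_iff]), if_pos rfl] at h1
  rw [if_neg (by simp), if_neg (by simp)] at h2
  refine ⟨σ, ?_⟩
  rw [ds_left σ h0]
  unfold dle
  rw [if_pos ⟨_, h0⟩, if_pos ⟨_, congrArg Fin.val h1⟩, if_neg]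
  rintro ⟨j, hj⟩
  have : σ (Sum.inl j) = σ (Sum.inr ⟨0, by omega⟩) := by
    rw [h2]
    exact Fin.ext hj
  have := σ.injective this
  simp at this

/-- type 0 -/
theorem ex_zero {La i n : ℕ} (hB : n + 1 = i + i) (hi : 3 ≤ i) :
    ∃ σ : Sp i (n + 1), ds La σ = La := by
  classical
  obtain ⟨σ, hσ⟩ := exists_sp (i := i) hB
    {Sum.inl ⟨0, by omega⟩, Sum.inr ⟨0, by omega⟩}
    (fun a => if a = Sum.inl ⟨0, by omega⟩ then Fin.last n else ⟨0, by omega⟩) (by
      intro a ha b hb hab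
      simp only [Finset.coe_insert, Finset.coe_singleton, Set.mem_insert_iff,
        Set.mem_singleton_iff] at ha hb
      rcases ha with rfl | rfl <;> rcases hb with rfl | rfl <;>
        first
        | rfl
        | (exfalso
           simp [Fin.ext_iff] at hab
           try omega))
  have h0 := hσ (Sum.inl ⟨0, by omega⟩) (by simp)
  have h2 := hσ (Sum.inr ⟨0, by omega⟩) (by simp)
  rw [if_pos rfl] at h0
  rw [if_neg (by simp)] at h2
  refine ⟨σ, ?_⟩
  rw [ds_left σ h0]
  unfold dle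
  rw [if_pos ⟨_, h0⟩, if_neg]
  rintro ⟨j, hj⟩
  have : σ (Sum.inl j) = σ (Sum.inr ⟨0, by omega⟩) := by
    rw [h2]
    exact Fin.ext hj
  have := σ.injective this
  simp at this

theorem count_val {ι : Type*} [Fintype ι] (f : ι → ℕ) {La : ℕ} (hLa : 2 ≤ La)
    (hf : ∀ a, f a = 0 ∨ f a = La - 1 ∨ f a = La) :
    ∑ a, f a = La * (Finset.univ.filter fun a => f a = La).card +
      (La - 1) * (Finset.univ.filter fun a => f a = La - 1).card ∧
    Fintype.card ι = (Finset.univ.filter fun a => f a = La).card +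
      (Finset.univ.filter fun a => f a = La - 1).card +
      (Finset.univ.filter fun a => f a = 0).card := by
  constructor
  · rw [Finset.card_filter, Finset.card_filter, Finset.mul_sum, Finset.mul_sum,
      ← Finset.sum_add_distrib]
    refine Finset.sum_congr rfl fun a _ => ?_
    rcases hf a with h | h | h <;> rw [h]
    · rw [if_neg (by omega), if_neg (by omega)]
      simp
    · rw [if_neg (by omega), if_pos rfl]
      simp
    · rw [if_pos rfl, if_neg (by omega)]
      simp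
  · rw [Finset.card_filter, Finset.card_filter, Finset.card_filter, ← Finset.sum_add_distrib,
      ← Finset.sum_add_distrib, Fintype.card, Finset.card_eq_sum_ones]
    refine Finset.sum_congr rfl fun a _ => ?_
    rcases hf a with h | h | h <;> rw [h]
    · rw [if_neg (by omega), if_neg (by omega), if_pos rfl]
    · rw [if_neg (by omega), if_pos rfl, if_neg (by omega)]
    · rw [if_pos rfl, if_neg (by omega), if_neg (by omega)]

theorem deg_inj {N0 n0 n1 n2 La h c al be ga al' be' ga' D : ℕ}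
    (hN : N0 = n0 + n1 + n2) (h1 : 1 ≤ n1) (hLa : 2 * N0 * h + 2 ≤ La)
    (hD : D = La * n0 + (La - 1) * n1)
    (hbe : be < h) (hga : ga < h) (hbe' : be' < h) (hga' : ga' < h)
    (hc : al + (N0 - 1) * be + N0 * (1 + ga) = c)
    (hc' : al' + (N0 - 1) * be' + N0 * (1 + ga') = c)
    (he : al * (2 * La) + be * (2 * D) + (1 + ga) * (2 * D) =
      al' * (2 * La) + be' * (2 * D) + (1 + ga') * (2 * D)) : be = be' ∧ ga = ga' := by
  obtain ⟨N1, rfl⟩ : ∃ N1, N0 = N1 + 1 := ⟨N0 - 1, by omega⟩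
  obtain ⟨L1, rfl⟩ : ∃ L1, La = L1 + 1 := ⟨La - 1, by omega⟩
  rw [Nat.add_sub_cancel] at hc hc' hD
  zify at hN h1 hLa hD hbe hga hbe' hga' hc hc' he
  have h0n : (0 : ℤ) ≤ n0 := by positivity
  have h2n : (0 : ℤ) ≤ n2 := by positivity
  have hb0 : (0 : ℤ) ≤ be := by positivity
  have hb0' : (0 : ℤ) ≤ be' := by positivity
  have hg0 : (0 : ℤ) ≤ ga := by positivity
  have hg0' : (0 : ℤ) ≤ ga' := by positivity
  have hal : (al : ℤ) - al' = -(N1 * ((be : ℤ) - be')) - (N1 + 1) * ((ga : ℤ) - ga') := by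
    linarith
  have hkey : ((L1 : ℤ) + 1) * (((be : ℤ) - be') - n2 * (((be : ℤ) - be') + ((ga : ℤ) - ga'))) =
      n1 * (((be : ℤ) - be') + ((ga : ℤ) - ga')) := by
    have e2 : ((al : ℤ) - al') * ((L1 : ℤ) + 1) +
        (((be : ℤ) - be') + ((ga : ℤ) - ga')) * D = 0 := by linarith
    rw [hal, hD] at e2
    have hN1 : (N1 : ℤ) = n0 + n1 + n2 - 1 := by linarith
    rw [hN1] at e2
    linarith
  set s : ℤ := ((be : ℤ) - be') + ((ga : ℤ) - ga') with hs
  set z : ℤ := ((be : ℤ) - be') - n2 * s with hz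
  have hs1 : s ≤ 2 * h := by linarith
  have hs2 : -(2 * (h : ℤ)) ≤ s := by linarith
  have hn1 : (n1 : ℤ) ≤ N1 + 1 := by linarith
  have hh0 : (0 : ℤ) ≤ h := by positivity
  have hb1 : (n1 : ℤ) * s ≤ (N1 + 1) * (2 * h) := by
    calc (n1 : ℤ) * s ≤ n1 * (2 * h) := mul_le_mul_of_nonneg_left hs1 (by linarith)
      _ ≤ (N1 + 1) * (2 * h) := mul_le_mul_of_nonneg_right hn1 (by linarith)
  have hb2 : -((N1 + 1 : ℤ) * (2 * h)) ≤ n1 * s := by
    have : (n1 : ℤ) * (2 * h) ≤ (N1 + 1) * (2 * h) :=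
      mul_le_mul_of_nonneg_right hn1 (by linarith)
    have h3 : (n1 : ℤ) * (-(2 * h)) ≤ n1 * s := mul_le_mul_of_nonneg_left hs2 (by linarith)
    linarith
  have hz0 : z = 0 := by
    by_contra hne
    rcases lt_or_gt_of_ne hne with hlt | hgt
    · have : ((L1 : ℤ) + 1) * z ≤ ((L1 : ℤ) + 1) * (-1) :=
        mul_le_mul_of_nonneg_left (by omega) (by positivity)
      rw [hkey] at this
      nlinarith
    · have : ((L1 : ℤ) + 1) * 1 ≤ ((L1 : ℤ) + 1) * z :=
        mul_le_mul_of_nonneg_left (by omega) (by positivity)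
      rw [hkey] at this
      nlinarith
  have hs0 : s = 0 := by
    rw [hz0, mul_zero] at hkey
    rcases mul_eq_zero.1 hkey.symm with h | h
    · exfalso
      linarith
    · exact h
  rw [hs0, mul_zero, sub_zero] at hz
  have hbb : (be : ℤ) = be' := by linarith
  have hgg : (ga : ℤ) = ga' := by linarith
  exact ⟨by exact_mod_cast hbb, by exact_mod_cast hgg⟩

theorem PD_GG {La i n : ℕ} (hLa : 2 ≤ La) (hB : n + 1 = i + i) (hi : 3 ≤ i) (al be ga : ℕ) :
    PD (GG i (n + 1) al be ga (R La i n))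
      (al * (2 * La) + be * (2 * ∑ σ : Sp i (n + 1), ds La σ) +
        (1 + ga) * (2 * ∑ σ : Sp i (n + 1), ds La σ)) := by
  have hn : 2 ≤ n := by omega
  have h1 : PD (F1 i (n + 1) (R La i n)) (2 * La) := by
    refine PD.sum Finset.univ (fun σ _ => PD_Y hLa hn σ) ?_ ?_
    · intro σ _
      rcases ds_val (La := La) σ with h | h | h <;> rw [h] <;> omega
    · obtain ⟨σ, hσ⟩ := ex_zero (La := La) hB hi
      exact ⟨σ, Finset.mem_univ _, by rw [hσ]⟩
  have h3 : PD (F3 i (n + 1) (R La i n)) (2 * ∑ σ : Sp i (n + 1), ds La σ) := by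
    rw [Finset.mul_sum]
    exact PD.prod Finset.univ fun σ _ => PD_Y hLa hn σ
  have h2 : PD (F2 i (n + 1) (R La i n)) (2 * ∑ σ : Sp i (n + 1), ds La σ) := by
    refine PD.sum Finset.univ (d := fun σ => ∑ σ' ∈ Finset.univ.erase σ, 2 * ds La σ')
      (fun σ _ => PD.prod _ fun σ' _ => PD_Y hLa hn σ') ?_ ?_
    · intro σ _
      rw [Finset.mul_sum]
      exact Finset.sum_le_sum_of_subset (Finset.erase_subset _ _)
    · obtain ⟨σ, hσ⟩ := ex_two (La := La) hB hi
      refine ⟨σ, Finset.mem_univ _, ?_⟩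
      rw [Finset.mul_sum]
      exact Finset.sum_erase _ (by rw [hσ, mul_zero])
  exact (((h1.pow al).mul (h2.pow be)).mul (h3.pow (1 + ga)))

theorem li_of_deg {ι V : Type*} [Fintype ι] (g : ι → ℝ[X]) (d : ι → ℕ) (hg : ∀ a, PD (g a) (d a))
    (hd : Function.Injective d) (F : ι → V → ℂ) (q : ℂ → V)
    (hF : ∀ a t, F a (q t) = ((g a).map Complex.ofRealHom).eval t) :
    LinearIndependent ℂ F := by
  classical
  rw [Fintype.linearIndependent_iff]
  intro c hc a
  by_contra ha
  have hne : (Finset.univ.filter fun a => c a ≠ 0).Nonempty := ⟨a, by simp [ha]⟩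
  obtain ⟨b, hb, hmax⟩ := Finset.exists_max_image _ d hne
  rw [Finset.mem_filter] at hb
  have hp : ∑ a, C (c a) * (g a).map Complex.ofRealHom = 0 := by
    refine Polynomial.funext fun t => ?_
    rw [eval_finsetSum, eval_zero]
    have := congrFun hc (q t)
    rw [Finset.sum_apply] at this
    simpa [hF] using this
  have hco := congrArg (fun p => p.coeff (d b)) hp
  simp only [finsetSum_coeff, coeff_C_mul, coeff_map, coeff_zero] at hco
  rw [Finset.sum_eq_single b] at hco
  · rcases mul_eq_zero.1 hco with h | h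
    · exact hb.2 h
    · have h2 := (hg b).2
      have : (g b).coeff (d b) = 0 := by simpa using h
      linarith
  · intro a _ hab
    by_cases hca : c a = 0
    · rw [hca, zero_mul]
    · have h1 : d a ≤ d b := hmax a (by simp [hca])
      have h2 : d a ≠ d b := fun h => hab (hd h)
      rw [coeff_eq_zero_of_natDegree_lt (lt_of_le_of_lt (hg a).1 (lt_of_le_of_ne h1 h2))]
      simp
  · intro h
    exact absurd (Finset.mem_univ _) h

end Vale.Agent.P181.FR.W7c
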